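import Vale.Agent.P153.App.Stm

/-! P153, module App: A0. -/

open Set

noncomputable section
namespace Vale.Agent.P153.App

theorem a0 (h1 : S_long) (h2 : S_hyp) (h3 : S_half) (h4 : S_low) (h5 : S_up) : A0 := by
  obtain ⟨f, hf, hr⟩ := RSW.rswc_all
  have hp : (1 / 7 : ℝ) ∈ Ioo (0 : ℝ) 1 := ⟨by norm_num, by norm_num⟩
  obtain ⟨η, hη, hr⟩ := hr _ hp
  have hq := (hf.1 _ hp).1
  obtain ⟨e, he, he1, he2, he3⟩ : ∃ e : ℝ, 0 < e ∧ e ≤ f (1 / 7) / 4 ∧ e ≤ η / 4 ∧ e ≤ 1 / 200 :=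
    ⟨min (f (1 / 7) / 4) (min (η / 4) (1 / 200)), by positivity, min_le_left _ _,
      (min_le_right _ _).trans (min_le_left _ _), (min_le_right _ _).trans (min_le_right _ _)⟩
  refine ⟨2 * 8200 + 2, e / (4 * (8200 : ℕ) + 5) ^ 2, by positivity, ?_, fun N hN => ?_⟩
  · rw [div_lt_one (by positivity)]
    norm_num
    linarith
  by_contra hlt
  have k1 : ∀ U : Set V, U ⊆ hex 0 (8200 * N) →
      Pr (free U 0) {H | Lng (star (hi 0 H)) (7 * N)} ≤ e := fun U hU => by
    have := h1 N 8200 _ U (by omega) hU (not_le.1 hlt).le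
    rwa [mul_div_cancel₀ _ (by positivity)] at this
  have k2 := h2 (7 * N) (1600 * N) (5000 * N) e (by omega) fun U hU =>
    k1 U (by rwa [show 8200 * N = 5000 * N + 2 * (1600 * N) by ring])
  have k3 := h3 (16 * N) (1600 * N) (5000 * N) _ (by omega) (by omega) k2
  have k4 := hr _ _ _ _ (k2.weak (by linarith)) (16 * N) (by omega) (by omega) (by linarith) 0
    (by simp [nrm]; omega)
  have k5 := h4 (4 * N) (7 * N) (16 * N) (5000 * N) (by omega) (by omega)
  have k6 := h5 (4 * N) (16 * N) (5000 * N) (by omega) (by omega)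
  have k7 := k1 (hex 0 (5000 * N)) fun x hx => by
    simp only [hex, mem_ofPred_eq] at hx ⊢
    omega
  have k8 : Pr (free (hex 0 (5000 * N)) 0) {H | Lng (star (hi 0 H)) (2 * (4 * N))} ≤
      Pr (free (hex 0 (5000 * N)) 0) {H | Lng (star (hi 0 H)) (7 * N)} :=
    Pr_mono fun H _ hH => by
      obtain ⟨a, b, h, h'⟩ := hH
      exact ⟨a, b, by omega, h'⟩
  linarith

end Vale.Agent.P153.App
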