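import Vale.Agent.P153.App.Stm

/-! P153, module App: A1. -/

open Set

noncomputable section
namespace Vale.Agent.P153.App

theorem a1_mono {E E' : V → V → Prop} {x : V} {n N : ℕ} (h : Circ E x n N)
    (hE : ∀ u ∈ ann x n N, ∀ v ∈ ann x n N, E u v → E' u v) : Circ E' x n N :=
  let ⟨m, w, k1, k2, k3, k4⟩ := h
  ⟨m, w, k1, fun t ht => ⟨(k2 t ht).1, hE _ (k3 t ht.le) _ (k3 (t + 1) ht) (k2 t ht).2⟩, k3, k4⟩

theorem a1_tr {E E' : V → V → Prop} {n N : ℕ} (x : V) (h : Circ E 0 n N)
    (hE : ∀ u v, E u v → E' (u + x) (v + x)) : Circ E' x n N := by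
  obtain ⟨m, w, k1, k2, k3, k4⟩ := h
  refine ⟨m, fun t => w t + x, by simp only [k1], fun t ht =>
    ⟨((isSym_tr x) _ _).2 (k2 t ht).1, hE _ _ (k2 t ht).2⟩, fun t ht => ?_, ?_⟩
  · have := k3 t ht
    rwa [mem_ann, add_sub_cancel_right, ← sub_zero (w t)]
  · have e : wind (fun t => w t + x) m x = wind w m 0 := by
      unfold wind
      congr 1
      ext t
      simp only [Finset.mem_filter]
      refine and_congr_right fun _ => ?_
      simp only [crossR, Prod.fst_add, Prod.snd_add, Prod.fst_zero, Prod.snd_zero]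
      omega
    rwa [e]

theorem a1_sign {H : Cfg} (hH : Lip H) {k : ℤ} {x : V} {n N : ℕ}
    (h : Circ (star (hi k H)) x n N) :
    Circ (star (ge (k + 2) H)) x n N ∨ Circ (star (le (k - 1) H)) x n N := by
  obtain ⟨m, w, k1, k2, k3, k4⟩ := h
  have e : ∀ t ≤ m, (k + 1 ≤ H (w t) ↔ k + 1 ≤ H (w 0)) := by
    intro t
    induction t with
    | zero => exact fun _ => Iff.rfl
    | succ t ih =>
      intro ht
      have h1 := abs_le.1 (hH _ _ (k2 t ht).1)
      have h2 := (k2 t ht).2
      have h3 := ih (Nat.le_of_succ_le ht)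
      simp only [star, hi, ab, mem_ofPred_eq, le_abs] at h2
      omega
  by_cases h0 : k + 1 ≤ H (w 0)
  · refine Or.inl ⟨m, w, k1, fun t ht => ⟨(k2 t ht).1, ?_⟩, k3, k4⟩
    have h2 := (k2 t ht).2
    have h3 := e t ht.le
    have h4 := e (t + 1) ht
    simp only [star, hi, ge, ab, mem_ofPred_eq, le_abs] at h2 ⊢
    omega
  · refine Or.inr ⟨m, w, k1, fun t ht => ⟨(k2 t ht).1, ?_⟩, k3, k4⟩
    have h2 := (k2 t ht).2
    have h3 := e t ht.le
    have h4 := e (t + 1) ht
    simp only [star, hi, le, ab, mem_ofPred_eq, le_abs] at h2 ⊢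
    omega

theorem a1_flip {U : Set V} (hU : U.Finite) (k : ℤ) {x : V} {n N : ℕ} (h : hex x N ⊆ U) :
    Pr (free U k) {H | Circ (star (le (k - 1) H)) x n N} =
      Pr (free U k) {H | Circ (star (ge (k + 2) H)) x n N} := by
  have d : ∀ H H' : Cfg, (∀ y ∈ U, H y = H' y) → Circ (star (ge (k + 2) H)) x n N →
      Circ (star (ge (k + 2) H')) x n N := fun H H' e hc =>
    a1_mono hc fun u hu v hv huv => by
      simp only [star, ge, mem_ofPred_eq] at huv ⊢
      rwa [← e u (h (ann_subset_hex hu)), ← e v (h (ann_subset_hex hv))]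
  have := Ex_free_flip (f := {H | Circ (star (ge (k + 2) H)) x n N}.indicator 1) hU k (2 * k + 1)
    fun H H' e => le_antisymm (ind_mono (d H H' e)) (ind_mono (d H' H fun y hy => (e y hy).symm))
  rw [show 2 * k + 1 - k - 1 = k by ring] at this
  refine (Ex_congr fun H _ => ?_).trans this
  have e : le (k - 1) H = ge (k + 2) fun y => 2 * k + 1 - H y := by
    ext y
    simp only [le, ge, mem_ofPred_eq]
    omega
  exact le_antisymm (ind_mono fun hc => by rwa [mem_ofPred_eq, e] at hc)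
    (ind_mono fun hc => by rwa [mem_ofPred_eq, e])

theorem a1 (h : A1a) : A1 := by
  obtain ⟨M, c, hc, h⟩ := h
  refine ⟨326 * (15 + M), c / 2, by omega, half_pos hc, fun N x U k hN hU hs => ?_⟩
  have l1 : M * (326 * N) ≤ 326 * (15 + M) * N := by nlinarith
  have l2 : 15 * (326 * N) ≤ 326 * (15 + M) * N := by nlinarith
  have h1 := h (326 * N) (by omega)
  have b := bij_free (isSym_tr x) (hex 0 (M * (326 * N))) 0 k
  rw [(isSym_tr x).hex, zero_add, show tr x 0 = x from zero_add x] at b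
  have h2 : c ≤ Pr (free (hex x (M * (326 * N))) k)
      {H | Circ (star (hi k H)) x (326 * N) (15 * (326 * N))} := by
    rw [← Pr_bij b]
    refine h1.trans (Pr_mono fun H _ hH => a1_tr x hH fun u v huv => ?_)
    have e : ∀ y, y + x ∈ hi k (hact (tr x) 1 k H) ↔ y ∈ hi 0 H := fun y => by
      have e1 : (tr x).symm (y + x) = y := (tr x).symm_apply_apply y
      simp only [hi, ab, hact, mem_ofPred_eq, e1, one_mul, add_sub_cancel_right, sub_zero]
    exact huv.imp (e u).2 (e v).2
  have h3 := h2.trans ((sdA_free hU ((hex_mono l1).trans hs) k).inc fun H K _ _ hHK hH =>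
    Circ.mono hH (star_mono fun y hy => le_trans hy (hHK y)) le_rfl le_rfl)
  have h4 := h3.trans ((Pr_mono (E' := {H | Circ (star (ge (k + 2) H)) x N (326 * (15 + M) * N)} ∪
    {H | Circ (star (le (k - 1) H)) x N (326 * (15 + M) * N)}) fun H hH hc =>
      a1_sign hH.1 (Circ.mono hc (fun _ _ h => h) (by omega) l2)).trans (Pr_union_le _ _ _))
  rw [a1_flip hU k hs] at h4 ⊢
  constructor <;> linarith

end Vale.Agent.P153.App
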