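import Vale.Agent.P153.App.Stm

/-! P153, module App: A1a. -/

open Set

noncomputable section
namespace Vale.Agent.P153.App

theorem a1a_inc {A : Set Cfg} (h : RSW.Up (fun H => star (hi 0 H)) A) : IncBy (ab 0) A :=
  fun H K _ _ hle hA => h H K (star_mono fun z hz => le_trans hz (hle z)) hA

theorem a1a_mono {A : Set Cfg} (h : RSW.Up (fun H => star (hi 0 H)) A) {U : Set V} {n : ℕ}
    (hU : U ⊆ hex 0 n) : Pr (free U 0) A ≤ Pr (free (hex 0 n) 0) A :=
  (sdA_free (hex_finite 0 n) hU 0).inc (a1a_inc h)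

theorem a1a_arm (x : V) (n N : ℕ) :
    RSW.Up (fun H => star (hi 0 H)) {H | Arm (star (hi 0 H)) x n N} := by
  rintro H K h ⟨a, b, h1, h2, h3⟩
  exact ⟨a, b, h1, h2, RSW.cn_mono h le_rfl h3⟩

theorem a1a_sym {g : V ≃ V} (hg : IsSym g) (S A B : Set V) (n R : ℕ) (h1 : S ⊆ hex 0 R)
    (h2 : g '' S ⊆ hex 0 R) :
    Pr (free (hex 0 n) 0) (RSW.Ev (fun H => star (hi 0 H)) S A B) ≤
      Pr (free (hex 0 (n + 2 * R)) 0)
        (RSW.Ev (fun H => star (hi 0 H)) (g '' S) (g '' A) (g '' B)) := by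
  rcases S.eq_empty_or_nonempty with rfl | ⟨s, hs⟩
  · rw [Pr_eq_zero]
    · exact Pr_nonneg _ _
    · rintro H - ⟨a, -, b, -, h, -⟩
      exact h
  have a1 : nrm (s - 0) ≤ R := h1 hs
  have a2 : nrm (g s - 0) ≤ R := h2 (mem_image_of_mem g hs)
  have a3 : nrm (g 0 - g s) = nrm (0 - s) := hg.nrm_eq s 0
  have a4 := nrm_tri 0 (g s) (g 0)
  have a5 : nrm (0 - s) = nrm (s - 0) := by
    rw [nrm_sub, nrm_sub]; omega
  have hb := bij_free hg (hex 0 n) 0 0
  rw [hg.hex, add_zero] at hb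
  refine le_trans ?_ (a1a_mono RSW.up_ev (U := hex (g 0) n) (hex_subset (by omega)))
  rw [← Pr_bij hb]
  refine Pr_mono ?_
  rintro H - ⟨a, ha, b, hb', h3, h4⟩
  refine ⟨g a, mem_image_of_mem g ha, g b, mem_image_of_mem g hb', mem_image_of_mem g h3,
    RSW.cn_map hg (fun x y h => ?_) h4⟩
  have e : ∀ z, z ∈ hi 0 H → g z ∈ hi 0 (hact g 1 0 H) := by
    intro z hz
    simpa [hi, ab, hact] using hz
  exact h.imp (e x) (e y)

theorem a1a (h : A0) : A1a := by
  obtain ⟨K, p, p0, p1, hK⟩ := h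
  obtain ⟨f, hf, hfp⟩ := RSW.rswc_all
  obtain ⟨η, η0, hη⟩ := hfp p ⟨p0, p1⟩
  obtain ⟨J, hJ⟩ := exists_nat_gt (1 / η)
  have J0 : (0 : ℝ) < J := lt_trans (by positivity) hJ
  have J1 : 0 < J := by exact_mod_cast J0
  refine ⟨K + 200 * J, f p, (hf.1 p ⟨p0, p1⟩).1, fun N hN => ?_⟩
  have T0 : 0 < 200 * N * J := by positivity
  have T1 : (0 : ℝ) < (200 * N * J : ℕ) := by exact_mod_cast T0
  have hH := RSW.avg_hyp Cfg (fun H => star (hi 0 H))
    (fun t => Pr (free (hex 0 (K * N + t)) 0)) (100 * N) (200 * N) (200 * N * J) T0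
    (fun _ _ _ h => Or.symm h) (fun _ _ => Pr_nonneg _ _)
    (fun _ => Pr_univ (good_free (hex_finite _ _) 0))
    (fun _ A B hd => Pr_union_of_disj fun H _ h1 h2 => disjoint_left.1 hd h1 h2)
    (fun _ A B hA hB => (paA_free (hex_finite _ _) 0).inc (a1a_inc hA) (a1a_inc hB))
    (Or.inl ⟨fun t A hA => a1a_mono hA (hex_mono (by omega)), fun t g hg S A B h1 h2 => by
      have := a1a_sym hg S A B (K * N + t) (100 * N) h1 h2
      rwa [show K * N + t + 2 * (100 * N) = K * N + (t + 200 * N) by ring] at this⟩)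
  have hr : ((200 * N : ℕ) : ℝ) / (200 * N * J : ℕ) ≤ η := by
    have N0 : (0 : ℝ) < N := by exact_mod_cast (by omega : 0 < N)
    rw [div_le_iff₀ T1]
    rw [div_lt_iff₀ η0] at hJ
    push_cast
    nlinarith
  have h1 := hη Cfg _ _ _ (hH.weak hr) N hN le_rfl (by
    rw [le_div_iff₀ T1, mul_comm, ← nsmul_eq_mul]
    have := Finset.card_nsmul_le_sum (Finset.range (200 * N * J))
      (fun t => Pr (free (hex 0 (K * N + t)) 0) {H | Arm (star (hi 0 H)) 0 N (5 * N)}) p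
      fun t _ => (hK N hN).trans (a1a_mono (a1a_arm 0 N (5 * N)) (hex_mono (by omega)))
    rwa [Finset.card_range] at this) 0 (by rw [nrm_zero]; omega)
  refine h1.trans ?_
  rw [div_le_iff₀ T1, mul_comm _ ((200 * N * J : ℕ) : ℝ), ← nsmul_eq_mul]
  have := Finset.sum_le_card_nsmul (Finset.range (200 * N * J))
    (fun t => Pr (free (hex 0 (K * N + t)) 0) {H | Circ (star (hi 0 H)) 0 N (15 * N)})
    (Pr (free (hex 0 ((K + 200 * J) * N)) 0) {H | Circ (star (hi 0 H)) 0 N (15 * N)})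
    fun t ht => a1a_mono (RSW.up_circ 0 N (15 * N)) (hex_mono (by
      have := Finset.mem_range.1 ht
      nlinarith))
  rwa [Finset.card_range] at this

end Vale.Agent.P153.App
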