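import Vale.Agent.P153.App.Stm

/-! P153, module App: Det. -/

open Set

noncomputable section
namespace Vale.Agent.P153.App

theorem det_far {Y : Set V} (hf : Y.Finite) {p : V} (hp : p ∈ Y) (x : V) :
    ∃ a ∈ Y, ∃ b, Adj a b ∧ (∀ y ∈ Y, nrm (y - x) ≤ nrm (a - x)) ∧
      nrm (b - x) = nrm (a - x) + 1 := by
  obtain ⟨a, ha, hm⟩ := Set.exists_max_image Y (fun y => nrm (y - x)) hf ⟨p, hp⟩
  obtain ⟨b, hb, h⟩ := exists_farther x a
  exact ⟨a, ha, b, hb, hm, h⟩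

theorem obd_ext {Y : Set V} {p q : V} (hY : Cn Y) (hf : Y.Finite) (hp : p ∈ Y) (hq : q ∈ Y) :
    ∃ p' ∈ obd Y, ∃ q', nrm (q - p) ≤ nrm (q' - p') ∧ Conn (fun _ _ => True) (obd Y) p' q' := by
  obtain ⟨a, ha, p', hap, hm, hp'⟩ := det_far hf hp p
  obtain ⟨b, hb, q', hbq, hm', hq'⟩ := det_far hf hp p'
  obtain ⟨w, hw⟩ := compl_nonempty ((hex_finite p (nrm (a - p))).union (hex_finite p' (nrm (b - p'))))
  have key : ∀ (x c d : V), (∀ y ∈ Y, nrm (y - x) ≤ nrm (c - x)) → w ∉ hex x (nrm (c - x)) →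
      c ∈ Y → Adj c d → nrm (d - x) = nrm (c - x) + 1 → d ∈ ibd (comp Yᶜ w) := by
    intro x c d h1 h2 h3 h4 h5
    have hs : (hex x (nrm (c - x)))ᶜ ⊆ comp Yᶜ w :=
      (cn_compl_hex x _).subset_comp (fun y hy hyY => hy (mem_hex.2 (h1 y hyY))) h2
    refine ⟨hs fun h => ?_, c, fun h => comp_subset h h3, h4.symm⟩
    have := mem_hex.1 h
    omega
  have k1 := key p a p' hm (fun h => hw (Or.inl h)) ha hap hp'
  have k2 := key p' b q' hm' (fun h => hw (Or.inr h)) hb hbq hq'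
  have hsub : ibd (comp Yᶜ w) ⊆ obd Y := by
    rw [← ibd_compl]; exact ibd_comp
  have hc := cn_ibd (cn_comp Yᶜ w) (cn_compl_comp hY ⟨p, hp⟩ w)
  refine ⟨p', hsub k1, q', ?_, (hc p' k1 q' k2).monoA hsub⟩
  have e1 := hm q hq
  have e2 := hm' p hp
  rw [nrm_sub_comm p p'] at e2
  omega

theorem s_det : S_det := by
  intro H U k r hH hU hk hr hL ⟨a, b, hab, hc⟩
  set O : Set V := (hex a (2 * r - 1))ᶜ with hO
  set E : V → V → Prop := star (sp k H)ᶜ with hE
  have hE2 : E = star (sp (k + 2) H) := by rw [hE, sp_compl]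
  have hOn : O.Nonempty := compl_nonempty (hex_finite a _)
  have hOc : Cn O := cn_compl_hex a _
  set X := scr E O a with hX
  have h1 : hex a r ⊆ X := by
    refine hex_subset_scr (R := 2 * r) (star_symm _) (by omega) (fun v hv => ?_) ?_
    · have : ¬ nrm (v - a) ≤ 2 * r - 1 := fun h => hv (mem_hex.2 h)
      change 2 * r ≤ nrm (v - a)
      omega
    · rintro ⟨u, v, hu, hv, huv⟩
      refine hL ⟨u, v, ?_, hE2 ▸ huv.monoA (subset_univ _)⟩
      have := nrm_tri a u v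
      omega
  have hXf : X.Finite := (hex_finite a (2 * r - 1)).subset fun v hv => not_not.1 (scr_subset hv)
  have hbX : b ∉ X := fun h => by
    have := mem_hex.1 (not_not.1 (scr_subset h))
    omega
  obtain ⟨u, v, -, huv, hs, -, huX, -, hvX, -⟩ := hc.exit (h1 (self_mem_hex a r)) hbX
  have hbd : ibd X ∪ obd X ⊆ sp k H := scr_bd _
  have hcb : Cn (ibd X ∪ obd X) := cn_bd cn_scr (cn_compl_scr hOc hOn)
  have hu : u ∈ ibd X ∪ obd X := Or.inl ⟨huX, v, hvX, huv⟩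
  have hv : v ∈ ibd X ∪ obd X := Or.inr ⟨hvX, u, huX, huv.symm⟩
  set Y := comp (sp k H) u with hY
  have hsY : ibd X ∪ obd X ⊆ Y := hcb.subset_comp hbd hu
  obtain ⟨m, hm, hb⟩ := band_of_cn hH (cn_comp (sp k H) u) comp_subset
  by_cases hYf : Y.Finite
  · obtain ⟨c, hcX, p, hcp, hmx, hp⟩ := det_far hXf huX a
    obtain ⟨d, hdX, q, hdq, hmy, hq⟩ := det_far hXf huX p
    have hpX : p ∉ X := fun h => by have := hmx p h; omega
    have hqX : q ∉ X := fun h => by have := hmy q h; omega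
    have hpY : p ∈ Y := hsY (Or.inr ⟨hpX, c, hcX, hcp.symm⟩)
    have hqY : q ∈ Y := hsY (Or.inr ⟨hqX, d, hdX, hdq.symm⟩)
    obtain ⟨p', hp', q', hd, hcn⟩ := obd_ext (cn_comp _ u) hYf hpY hqY
    have hob : obd Y ⊆ sp (k + 2) H := fun y hy => by
      rw [← sp_compl]; exact (obd_comp hy).1
    refine hL ⟨p', q', ?_, hcn.mono' fun s t _ _ hs _ => ⟨Or.inl (hob hs), trivial, trivial⟩⟩
    have e1 : r < nrm (p - a) := not_le.1 fun h => hpX (h1 (mem_hex.2 h))
    have e2 := hmy a (h1 (self_mem_hex a r))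
    rw [nrm_sub_comm a p] at e2
    omega
  · obtain ⟨y, hy, hyU⟩ := (Set.Infinite.exists_notMem_finite hYf hU)
    have e1 := hb y hy
    have e2 := hb u (hsY hu)
    have e3 := hb v (hsY hv)
    rw [hk y hyU] at e1
    have e4 : m = k := by omega
    subst e4
    rcases hs with hs | hs
    · exact ab_ne_one.2 (ab_eq_one.2 e2) hs
    · exact ab_ne_one.2 (ab_eq_one.2 e3) hs

end Vale.Agent.P153.App
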