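import Vale.Agent.P153.App.Stm

/-! P153, module App: GStar. -/

open Set

noncomputable section
namespace Vale.Agent.P153.App

theorem gstar_hi {k : ℤ} {H K : Cfg} (h : ab k H ≤ ab k K) : hi k H ⊆ hi k K :=
  fun z hz => le_trans (show 3 ≤ ab k H z from hz) (h z)

theorem gstar_dec (k : ℤ) (r : ℕ) : DecBy (ab k) {H | ¬ Lng (star (hi k H)) r} := by
  rintro H K - - h hK ⟨a, b, h1, h2⟩
  exact hK ⟨a, b, h1, h2.mono (star_mono (gstar_hi h)) subset_rfl⟩

theorem gstar_lng {E : V → V → Prop} {r s : ℕ} (h : r ≤ s) (hs : Lng E s) : Lng E r := by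
  obtain ⟨a, b, h1, h2⟩ := hs
  exact ⟨a, b, h.trans h1, h2⟩

theorem gstar_empty {k : ℤ} {H : Cfg} {r : ℕ} (hr : 1 ≤ r) (h : hi k H = ∅) :
    ¬ Lng (star (hi k H)) r := by
  rintro ⟨a, b, h1, h2⟩
  rw [h] at h2
  induction h2 with
  | refl => simp at h1; omega
  | tail _ h3 _ => exact h3.2.1.elim id id

theorem gstar_tr (x : V) (k : ℤ) (n : ℕ) :
    Pr (free (hex 0 n) 0) {H | hi 0 H = ∅} = Pr (free (hex x n) k) {H | hi k H = ∅} := by
  have h := Pr_bij (bij_free (isSym_tr x) (hex 0 n) 0 k) {H | hi k H = ∅}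
  rw [(isSym_tr x).hex, zero_add, show tr x 0 = x from zero_add x] at h
  rw [← h]
  congr 1
  ext H
  simp only [mem_preimage, mem_ofPred_eq, eq_empty_iff_forall_notMem, hi, ab, hact]
  constructor
  · intro h1 z
    have := h1 ((tr x).symm z)
    rwa [show 2 * (1 * H ((tr x).symm z) + k - k) - 1 = 2 * (H ((tr x).symm z) - 0) - 1 by ring]
  · intro h1 z
    have := h1 (tr x z)
    rwa [Equiv.symm_apply_apply, show 2 * (1 * H z + k - k) - 1 = 2 * (H z - 0) - 1 by ring] at this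

theorem gstar (h : Grid) (h' : S_det) : GStar := by
  obtain ⟨r₀, h⟩ := h
  intro L
  obtain ⟨c, hc, h⟩ := h (3 * L)
  have hc0 : 0 < Pr (free (hex 0 (L * (2 * r₀ + 2))) 0) {H | hi 0 H = ∅} := by
    refine Pr_pos (H₀ := fun _ => 0) (good_free (hex_finite _ _) 0).1
      ⟨lip_const 0, fun _ _ => rfl, fun _ _ => Or.inl rfl⟩ ?_
    simp [hi, ab]
  refine ⟨min c _, lt_min hc hc0, fun r x U k hr hU => ?_⟩
  by_cases hb : r ≤ 2 * r₀ + 2
  · refine (min_le_right _ _).trans ?_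
    have hU' : U ⊆ hex x (L * (2 * r₀ + 2)) := hU.trans (hex_mono (Nat.mul_le_mul_left L hb))
    rw [gstar_tr x k]
    exact (Pr_mono fun H _ hH => gstar_empty hr hH).trans
      ((sdA_free (hex_finite _ _) hU' k).dec (gstar_dec k r))
  · refine (min_le_left _ _).trans ?_
    have hU' : U ⊆ hex x (3 * L * (r / 2)) := by
      refine hU.trans (hex_mono ?_)
      rw [mul_comm 3 L, mul_assoc]
      exact Nat.mul_le_mul_left L (by omega)
    refine (h (r / 2) x k (by omega)).trans ((Pr_mono fun H hH h1 => ?_).trans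
      ((sdA_free (hex_finite _ _) hU' k).dec (gstar_dec k r)))
    exact fun h2 => h' H _ k (r / 2) hH.1 (hex_finite _ _) hH.2.1 (by omega) h1
      (gstar_lng (by omega) h2)

theorem gstar_big (H : Cfg) : Seal.big 0 0 H = hi 0 H := by
  ext z
  simp only [Seal.big, hi, ab, mem_ofPred_eq, Pi.zero_apply, le_abs]
  omega

theorem seal_gstar (h : GStar) : Seal.Gstar := by
  intro L
  obtain ⟨c, hc, h⟩ := h L
  refine ⟨c, hc, fun r hr x U D hU => (h r x U 0 hr hU).trans ?_⟩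
  have hf : U.Finite := (hex_finite _ _).subset hU
  have e : Seal.freeD U D = free U 0 ∩ {H | ∀ x ∈ D, ab 0 H x ≤ 1} := by
    ext H
    simp only [Seal.freeD, ab, mem_ofPred_eq, mem_inter_iff, abs_le]
    refine and_congr Iff.rfl (forall₂_congr fun z _ => ?_)
    omega
  have hE : DecBy (ab 0) {H | ∀ x ∈ D, ab 0 H x ≤ 1} := fun H K _ _ h1 h2 z hz =>
    (h1 z).trans (h2 z hz)
  have hne : Good (free U 0 ∩ {H | ∀ x ∈ D, ab 0 H x ≤ 1}) := by
    refine ⟨(good_free hf 0).1.subset inter_subset_left, fun _ => 0,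
      ⟨lip_const 0, fun _ _ => rfl, fun _ _ => Or.inl rfl⟩, fun z _ => ?_⟩
    simp [ab]
  simp only [gstar_big, e]
  exact ((paA_free hf 0).cond_dec hE hne (good_free hf 0).1).dec (gstar_dec 0 r)

end Vale.Agent.P153.App
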