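import Vale.Agent.P153.App.Stm

/-! P153, module App: Grid. -/

open Set

noncomputable section
namespace Vale.Agent.P153.App

theorem grid_sub {k : ℤ} {B : Set V} {H K : Cfg} (h : sp k H ∩ B ⊆ sp k K ∩ B) :
    sp (k + 2) K ∩ B ⊆ sp (k + 2) H ∩ B := by
  rintro u ⟨h1, h2⟩
  rw [sp_add_two] at h1 ⊢
  exact ⟨fun h3 => h1 (h ⟨h3, h2⟩).1, h2⟩

theorem grid_incN (k : ℤ) (z : V) (n N : ℕ) :
    IncBy (fun H => sp k H ∩ hex z N) {H | ¬ Arm (star (sp (k + 2) H)) z n N} := by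
  rintro H K - - h hH ⟨a, b, ha, hb, hc⟩
  refine hH ⟨a, b, ha, hb, hc.mono' fun u v _ e hu hv => ⟨?_, hu, hv⟩⟩
  rcases e with e | e
  · exact Or.inl (grid_sub h ⟨e, ann_subset_hex hu⟩).1
  · exact Or.inr (grid_sub h ⟨e, ann_subset_hex hv⟩).1

theorem grid_incN' (k : ℤ) (z : V) (n N : ℕ) :
    IncBy (sp k) {H | ¬ Arm (star (sp (k + 2) H)) z n N} := fun H K l l' h =>
  grid_incN k z n N H K l l' (inter_subset_inter_left _ h)

theorem grid_incG (k : ℤ) (U : Set V) (r : ℕ) :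
    IncBy (fun H => sp k H ∩ U) {H | ¬ Lng (star (sp (k + 2) H ∩ U)) r} := by
  rintro H K - - h hH ⟨a, b, hab, hc⟩
  exact hH ⟨a, b, hab, hc.mono (star_mono (grid_sub h)) subset_rfl⟩

theorem grid_eq {k : ℤ} {U : Set V} {H : Cfg} (h : H ∈ free U k) :
    sp (k + 2) H ∩ U = sp (k + 2) H := by
  refine inter_eq_left.2 fun u hu => ?_
  by_contra hn
  rw [sp_add_two] at hu
  exact hu (Or.inl (by rw [h.2.1 u hn]; simp))

theorem grid_start {S : Set V} {x a b : V} {R r : ℕ} (hr : 1 ≤ r) (hab : r ≤ nrm (b - a))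
    (hc : Conn (star (S ∩ hex x R)) univ a b) : a ∈ hex x (R + 1) := by
  rcases Relation.ReflTransGen.cases_head hc with rfl | ⟨c, ⟨h1, h2, -⟩, -⟩
  · rw [sub_self, nrm_eq_zero.2 rfl] at hab
    omega
  · rcases h2 with h2 | h2
    · exact hex_mono (Nat.le_succ R) h2.2
    · have h3 := h1.symm.nrm_le x
      have h4 := mem_hex.1 h2.2
      exact mem_hex.2 (by omega)

theorem grid (h : RSW0) : Grid := by
  obtain ⟨C, c, hC, hc, h⟩ := h
  have hc1 : c ≤ 1 := (h 1 0 0 2 le_rfl (by norm_num)).trans (Pr_le_one _ _)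
  refine ⟨2 * (C + 1), fun L => ⟨c ^ (2 * ((L + 1) * (2 * (C + 1))) + 3) ^ 2, pow_pos hc _,
    fun r x k hr => ?_⟩⟩
  obtain ⟨ρ, hρ⟩ : ∃ ρ, ρ = r / (2 * (C + 1)) := ⟨_, rfl⟩
  have hm : 0 < 2 * (C + 1) := by omega
  have r1 : 1 ≤ ρ := hρ ▸ (Nat.le_div_iff_mul_le hm).2 (by omega)
  have r2 : 2 * (C + 1) * ρ ≤ r := hρ ▸ Nat.mul_div_le r _
  have r3 : r < 2 * (C + 1) * (ρ + 1) := hρ ▸ Nat.lt_mul_div_succ r hm
  obtain ⟨T, t1, t2, t3⟩ := cover_arm x (L * r + 1) ρ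
  have t4 : (L * r + 1) / (ρ + 1) ≤ (L + 1) * (2 * (C + 1)) := by
    refine Nat.div_le_of_le_mul ?_
    have := Nat.mul_le_mul_left L r3.le
    nlinarith
  have t5 : T.card ≤ (2 * ((L + 1) * (2 * (C + 1))) + 3) ^ 2 :=
    t1.trans (Nat.pow_le_pow_left (by omega) 2)
  have n1 : 2 * ρ ≤ C * (2 * ρ) := Nat.le_mul_of_pos_left _ hC
  have n2 : C * (2 * ρ) + 2 * ρ ≤ r := by nlinarith
  have fU := hex_finite x (L * r + 1 + 2 * ρ + C * (2 * ρ))
  have cU := cnn_hex_compl x (L * r + 1 + 2 * ρ + C * (2 * ρ))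
  have s1 := (sand_free (j := k) (k := k) (m := k) fU cU (cnn_hex_compl x (L * r))
    (hex_mono (by omega)) (by simp)).2 (by simp)
  have s2 := s1.inc (grid_incG k (hex x (L * r)) r)
  have s3 : Pr (free (hex x (L * r)) k) {H | ¬ Lng (star (sp (k + 2) H ∩ hex x (L * r))) r} =
      Pr (free (hex x (L * r)) k) {H | ¬ Lng (star (sp (k + 2) H)) r} :=
    Pr_congr fun H hH => by simp only [mem_setOf_eq, grid_eq hH]
  have s4 := (paS_free (j := k) (k := k) fU cU (by simp)).inc_prod (good_free fU k) T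
    (fun z => {H | ¬ Arm (star (sp (k + 2) H)) z (2 * ρ) (C * (2 * ρ))})
    fun z _ => grid_incN' k z _ _
  have s5 : ∀ z ∈ T, c ≤ Pr (free (hex x (L * r + 1 + 2 * ρ + C * (2 * ρ))) k)
      {H | ¬ Arm (star (sp (k + 2) H)) z (2 * ρ) (C * (2 * ρ))} := fun z hz => by
    have a1 := mem_hex.1 (t2 z hz)
    have a2 := (sand_free (j := k) (k := k + 2) (m := k) fU cU (cnn_hex_compl z (C * (2 * ρ)))
      (hex_subset (by omega)) (by simp)).1 (by simp)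
    exact (h (2 * ρ) z k (k + 2) (by omega) (by simp)).trans (a2.inc (grid_incN k z _ _))
  have s6 : Pr (free (hex x (L * r + 1 + 2 * ρ + C * (2 * ρ))) k)
      (⋂ z ∈ T, {H | ¬ Arm (star (sp (k + 2) H)) z (2 * ρ) (C * (2 * ρ))}) ≤
      Pr (free (hex x (L * r + 1 + 2 * ρ + C * (2 * ρ))) k)
        {H | ¬ Lng (star (sp (k + 2) H ∩ hex x (L * r))) r} := by
    refine Pr_mono fun H _ hH => ?_
    rintro ⟨a, b, hab, hcn⟩
    obtain ⟨z, hz, -, hA⟩ := t3 _ _ a b (C * (2 * ρ)) (grid_start (by omega) hab hcn) n1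
      (n2.trans hab) hcn
    exact mem_iInter₂.1 hH z hz (hA.mono (star_mono inter_subset_left) le_rfl n1 le_rfl)
  calc c ^ (2 * ((L + 1) * (2 * (C + 1))) + 3) ^ 2 ≤ c ^ T.card :=
        pow_le_pow_of_le_one hc.le hc1 t5
    _ = ∏ _z ∈ T, c := (Finset.prod_const c).symm
    _ ≤ _ := Finset.prod_le_prod (fun _ _ => hc.le) s5
    _ ≤ _ := s4
    _ ≤ _ := s6
    _ ≤ _ := s2
    _ = _ := s3

end Vale.Agent.P153.App
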