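import Vale.Agent.P153.App.Stm

/-! P153, module App: Half. -/

open Set

noncomputable section
namespace Vale.Agent.P153.App

theorem half_dep {n : ℕ} {H K : Cfg} (e : ∀ x ∈ rh 0 n, H x = K x)
    (h : VCr (both (ge 1 H)) 0 n) : VCr (both (ge 1 K)) 0 n := by
  obtain ⟨a, b, h1, h2, h3, h4⟩ := h
  refine ⟨a, b, h1, h2, h3, h4.mono' fun u v _ k hu hv => ⟨⟨?_, ?_⟩, hu, hv⟩⟩
  · show 1 ≤ K u
    rw [← e u hu]
    exact k.1
  · show 1 ≤ K v
    rw [← e v hv]
    exact k.2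

theorem half_flip {n T : ℕ} (h : 2 * n ≤ T) :
    Pr (free (hex 0 T) 0) {H | VCr (both (le 0 H)) 0 n} =
      Pr (free (hex 0 T) 0) {H | VCr (both (ge 1 H)) 0 n} := by
  have hs : rh (0 : V) n ⊆ hex 0 T := rh_subset_hex.trans (hex_mono h)
  have hf : DepOn ({H | VCr (both (ge 1 H)) 0 n}.indicator (1 : Cfg → ℝ)) (hex 0 T) :=
    fun H K e => le_antisymm (ind_mono (half_dep fun x hx => e x (hs hx)))
      (ind_mono (half_dep fun x hx => (e x (hs hx)).symm))
  have key := Ex_free_flip (hex_finite 0 T) 0 1 hf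
  rw [show (1 : ℤ) - 0 - 1 = 0 by norm_num] at key
  rw [Pr, Pr, ← key]
  refine Ex_congr fun H _ => ?_
  have e : ge 1 (fun x => 1 - H x) = le 0 H := by
    ext x
    simp only [ge, le, mem_ofPred_eq]
    omega
  refine le_antisymm (ind_mono fun k => ?_) (ind_mono fun k => ?_)
  · show VCr (both (ge 1 fun x => 1 - H x)) 0 n
    rw [e]
    exact k
  · have k' : VCr (both (ge 1 fun x => 1 - H x)) 0 n := k
    rw [e] at k'
    exact k'

theorem half_swap (n T : ℕ) :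
    Pr (free (hex 0 T) 0) {H | VCr (both (ge 1 H)) 0 n} ≤
      Pr (free (hex 0 T) 0) {H | HCr (both (ge 1 H)) 0 n} := by
  have hb := bij_free isSym_swp (hex 0 T) 0 0
  rw [isSym_swp.hex, show swp 0 = 0 from rfl, add_zero] at hb
  rw [← Pr_bij hb {H | HCr (both (ge 1 H)) 0 n}]
  refine Pr_mono fun H _ k => ?_
  obtain ⟨a, b, h1, h2, h3, h4⟩ := (hcr_swap (E := both (ge 1 H)) (x := 0) (n := n)).2 k
  refine ⟨a, b, h1, h2, h3, h4.mono (fun u v k => ?_) Subset.rfl⟩
  have e : ∀ u : V, hact swp 1 0 H u = H u.swap := fun u => by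
    simp only [hact, one_mul, add_zero]
    rfl
  exact ⟨show 1 ≤ hact swp 1 0 H u from (e u).symm ▸ k.1,
    show 1 ≤ hact swp 1 0 H v from (e v).symm ▸ k.2⟩

theorem half_half {n T : ℕ} (h : 2 * n ≤ T) :
    1 / 2 ≤ Pr (free (hex 0 T) 0) {H | HCr (both (ge 1 H)) 0 n} := by
  have h1 := Pr_compl (good_free (hex_finite 0 T) 0) {H | HCr (both (ge 1 H)) 0 n}
  have h2 : Pr (free (hex 0 T) 0) {H | HCr (both (ge 1 H)) 0 n}ᶜ ≤
      Pr (free (hex 0 T) 0) {H | VCr (both (le 0 H)) 0 n} := by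
    refine Pr_mono fun H _ k => ?_
    have e : (ge 1 H)ᶜ = le 0 H := by
      ext x
      simp only [ge, le, mem_compl_iff, mem_ofPred_eq]
      omega
    have := vcr_of_not_hcr k
    rwa [e] at this
  have h3 := half_flip h
  have h4 := half_swap n T
  linarith

theorem half_ev (e : Cfg → V → V → Prop) (z : V) {n N : ℕ} (h : n ≤ N) :
    {H | Arm (e H) z n N} = RSW.Ev e (ann z n N) {v | nrm (v - z) = n} {v | nrm (v - z) = N} := by
  ext H
  exact ⟨fun ⟨a, b, h1, h2, h3⟩ => ⟨a, h1, b, h2, ⟨h1.ge, h1.le.trans h⟩, h3⟩,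
    fun ⟨a, h1, b, h2, _, h3⟩ => ⟨a, b, h1, h2, h3⟩⟩

theorem half_tr {e : Cfg → V → V → Prop} {S : Set Cfg} {R n N : ℕ} {η : ℝ}
    (H : RSW.Hyp e (Pr S) R η) (z : V) (h : n ≤ N) (hz : nrm z + N ≤ R) :
    Pr S {H | Arm (e H) z n N} ≤ Pr S {H | Arm (e H) 0 n N} + η := by
  have hi : ∀ p : ℕ → Prop, tr (-z) '' {v | p (nrm (v - z))} = {v | p (nrm (v - 0))} := fun p => by
    ext v
    rw [Sym_mem]
    simp [tr]
  have h1 : tr (-z) '' ann z n N = ann 0 n N := hi fun k => n ≤ k ∧ k ≤ N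
  have := H.sym (tr (-z)) (isSym_tr _) (ann z n N) {v | nrm (v - z) = n} {v | nrm (v - z) = N}
    (ann_subset_hex.trans (hex_subset (by rwa [sub_zero])))
    (h1 ▸ ann_subset_hex.trans (hex_mono (by omega)))
  rw [h1, hi (· = n), hi (· = N)] at this
  rw [half_ev e z h, half_ev e 0 h]
  exact this

theorem s_half : S_half := by
  intro N R T η hR hT H
  have h1 := half_half (n := 3 * N) (T := T) (by omega)
  have h2 : Pr (free (hex 0 T) 0) {H | HCr (both (ge 1 H)) 0 (3 * N)} ≤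
      Pr (free (hex 0 T) 0) (({H | Arm (both (ge 1 H)) (-3 * N, -2 * N) N (5 * N)} ∪
        {H | Arm (both (ge 1 H)) (-3 * N, 0) N (5 * N)}) ∪
        {H | Arm (both (ge 1 H)) (-3 * N, 2 * N) N (5 * N)}) := by
    refine Pr_mono fun H _ k => ?_
    obtain ⟨a, b, k1, k2, k3, k4⟩ := k
    rw [mem_rh] at k3
    simp only [sub_zero, Prod.fst_zero, Prod.snd_zero] at k1 k2 k3
    push_cast at k1 k2 k3
    have hb : ∀ y : ℤ, 5 * N ≤ nrm (b - ((-3 * N, y) : V)) := fun y => by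
      rw [le_nrm_sub_iff]
      push_cast
      omega
    by_cases c1 : a.2 ≤ -N
    · refine Or.inl (Or.inl (k4.arm ?_ (by omega) (hb _)))
      rw [nrm_sub_le_iff]
      dsimp only
      omega
    by_cases c2 : a.2 ≤ N
    · refine Or.inl (Or.inr (k4.arm ?_ (by omega) (hb _)))
      rw [nrm_sub_le_iff]
      dsimp only
      omega
    · refine Or.inr (k4.arm ?_ (by omega) (hb _))
      rw [nrm_sub_le_iff]
      dsimp only
      omega
  have h3 := Pr_union_le (free (hex 0 T) 0) ({H | Arm (both (ge 1 H)) (-3 * N, -2 * N) N (5 * N)} ∪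
    {H | Arm (both (ge 1 H)) (-3 * N, 0) N (5 * N)})
    {H | Arm (both (ge 1 H)) (-3 * N, 2 * N) N (5 * N)}
  have h4 := Pr_union_le (free (hex 0 T) 0) {H | Arm (both (ge 1 H)) (-3 * N, -2 * N) N (5 * N)}
    {H | Arm (both (ge 1 H)) (-3 * N, 0) N (5 * N)}
  have hn : ∀ y : ℤ, -2 * N ≤ y → y ≤ 2 * N → nrm ((-3 * N, y) : V) + 5 * N ≤ R :=
    fun y y1 y2 => by
      have : nrm ((-3 * N, y) : V) ≤ 5 * N := by
        rw [nrm_le_iff]
        push_cast
        omega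
      omega
  have h5 := half_tr H (-3 * N, -2 * N) (n := N) (by omega) (hn _ (by omega) (by omega))
  have h6 := half_tr H (-3 * N, 0) (n := N) (by omega) (hn _ (by omega) (by omega))
  have h7 := half_tr H (-3 * N, 2 * N) (n := N) (by omega) (hn _ (by omega) (by omega))
  linarith

end Vale.Agent.P153.App
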