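import Vale.Agent.P153.App.Stm

/-! P153, module App: Hyp. -/

open Set

noncomputable section
namespace Vale.Agent.P153.App

theorem hyp_dep {S A B D : Set V} (h : S ⊆ D) :
    DepOn ((RSW.Ev (fun H => both (ge 1 H)) S A B).indicator (1 : Cfg → ℝ)) D := by
  have key : ∀ H K : Cfg, (∀ x ∈ D, H x = K x) → H ∈ RSW.Ev (fun H => both (ge 1 H)) S A B →
      K ∈ RSW.Ev (fun H => both (ge 1 H)) S A B := by
    rintro H K e ⟨a, ha, b, hb, h1, h2⟩
    refine ⟨a, ha, b, hb, h1, h2.mono' fun u v _ h3 h4 h5 => ⟨⟨?_, ?_⟩, h4, h5⟩⟩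
    · show 1 ≤ K u
      rw [← e u (h h4)]
      exact h3.1
    · show 1 ≤ K v
      rw [← e v (h h5)]
      exact h3.2
  intro H K e
  exact le_antisymm (ind_mono (key H K e)) (ind_mono (key K H fun x hx => (e x hx).symm))

theorem hyp_tv {n R T : ℕ} {η : ℝ} (hT : 3 * R + n ≤ T) {U : Set V} (hU : U.Finite)
    (h1 : hex 0 (T - 2 * R) ⊆ U) (h2 : Pr (free U 0) {H | Lng (star (hi 0 H)) n} ≤ η)
    {E : Set Cfg} (hE : DepOn (E.indicator (1 : Cfg → ℝ)) (hex 0 R)) :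
    |Pr (free (hex 0 (T - 2 * R)) 0) E - Pr (free U 0) E| ≤ 2 * η := by
  have h3 := tv_free (j := 0) hU h1 (M := 1)
    (fun H => abs_le.2 ⟨(neg_one_lt_zero.le).trans (ind_nonneg E H), ind_le_one E H⟩) hE
  have h4 : Pr (free U 0) {H | ¬ Rch (hex 0 R) (eA 0) H ⊆ hex 0 (T - 2 * R)} ≤
      Pr (free U 0) {H | Lng (star (hi 0 H)) n} := by
    refine Pr_mono fun H _ h => ?_
    obtain ⟨z, ⟨a, ha, hc⟩, hz⟩ := not_subset.1 h
    refine ⟨a, z, ?_, hc⟩
    have h5 := nrm_tri 0 a z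
    rw [mem_hex] at ha hz
    omega
  unfold Pr at h2 h4 ⊢
  unfold Pr at h3
  linarith

theorem s_hyp : S_hyp := by
  intro n R T η hT h
  have hη : 0 ≤ η := (Pr_nonneg _ _).trans (h ∅ (empty_subset _))
  have hup : ∀ A, RSW.Up (fun H => both (ge 1 H)) A → IncBy id A := fun A hA H K _ _ hle hH =>
    hA H K (both_mono fun x hx => le_trans hx (hle x)) hH
  refine ⟨fun H => both_symm _, Pr_nonneg _, Pr_univ (good_free (hex_finite 0 T) 0),
    fun A B hd => Pr_union_of_disj fun H _ h1 h2 => disjoint_left.1 hd h1 h2,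
    fun A B hA hB => (pa_free (hex_finite 0 T) 0).inc (hup A hA) (hup B hB),
    fun g hg S A B h1 h2 => ?_⟩
  rcases S.eq_empty_or_nonempty with rfl | ⟨s, hs⟩
  · rw [Pr_eq_zero (E := RSW.Ev (fun H => both (ge 1 H)) ∅ A B)
      fun H _ ⟨a, _, b, _, h3, _⟩ => h3]
    linarith [Pr_nonneg (free (hex 0 T) 0)
      (RSW.Ev (fun H => both (ge 1 H)) (g '' ∅) (g '' A) (g '' B))]
  have hy : nrm (g 0 - 0) ≤ 2 * R := by
    have k1 := mem_hex.1 (h1 hs)
    have k2 := mem_hex.1 (h2 (mem_image_of_mem g hs))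
    have k3 := hg.nrm_eq 0 s
    have k4 := nrm_tri 0 (g s) (g 0)
    rw [nrm_sub_comm (g 0) (g s)] at k4
    omega
  have hb := bij_free hg (hex 0 T) 0 0
  rw [hg.hex, add_zero] at hb
  have e1 : Pr (free (hex 0 T) 0) (RSW.Ev (fun H => both (ge 1 H)) S A B) ≤
      Pr (free (hex (g 0) T) 0) (RSW.Ev (fun H => both (ge 1 H)) (g '' S) (g '' A) (g '' B)) := by
    rw [← Pr_bij hb]
    refine Pr_mono fun H _ ⟨a, ha, b, hb', h3, h4⟩ => ⟨g a, mem_image_of_mem g ha, g b,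
      mem_image_of_mem g hb', mem_image_of_mem g h3,
      h4.map hg (fun u v h5 => ⟨?_, ?_⟩) fun u hu => mem_image_of_mem g hu⟩
    · have h6 : 1 ≤ H u := h5.1
      show 1 ≤ 1 * H (g.symm (g u)) + 0
      rw [g.symm_apply_apply]
      omega
    · have h6 : 1 ≤ H v := h5.2
      show 1 ≤ 1 * H (g.symm (g v)) + 0
      rw [g.symm_apply_apply]
      omega
  have e2 := hyp_tv hT (hex_finite (g 0) T) (fun z hz => by
      have k := nrm_tri (g 0) 0 z
      rw [nrm_sub_comm 0 (g 0)] at k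
      rw [mem_hex] at hz ⊢
      omega)
    (h _ fun z hz => by
      have k := nrm_tri 0 (g 0) z
      rw [mem_hex] at hz ⊢
      omega) (hyp_dep (A := g '' A) (B := g '' B) h2)
  have e3 := hyp_tv hT (hex_finite 0 T) (fun z hz => by
      rw [mem_hex] at hz ⊢
      omega)
    (h _ fun z hz => by
      rw [mem_hex] at hz ⊢
      omega) (hyp_dep (A := g '' A) (B := g '' B) h2)
  rw [abs_le] at e2 e3
  linarith [e2.1, e3.2]

end Vale.Agent.P153.App
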