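import Vale.Agent.P153.App.Stm

/-! P153, module App: Level. -/

open Set

noncomputable section
namespace Vale.Agent.P153.App

theorem level_mono {j : ℤ} {B B' T : Set V} (h : B ⊆ B') : NoS j B T ⊆ NoS j B' T :=
  fun _ hH => Disjoint.mono_left (Rch_mono (compl_subset_compl.2 h) fun _ _ _ h => h) hH

theorem level_dec (j : ℤ) (B T : Set V) : DecBy (ab j) (NoS j B T) :=
  fun _ _ _ _ h hK => Disjoint.mono_left (Rch_mono Subset.rfl fun a b _ h' =>
    h'.imp (fun h1 => le_trans h1 (h a)) fun h1 => le_trans h1 (h b)) hK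

theorem level_loc {X : Set V} {Eb : ℤ → ℤ → Prop} {K K' : Cfg} (h : ∀ x ∈ X, K x = K' x) :
    Rch (X \ ibd X)ᶜ Eb K ⊆ Rch (X \ ibd X)ᶜ Eb K' := by
  rintro x ⟨y, hy, hc⟩
  refine hc.ind (P := fun v => v ∈ Rch (X \ ibd X)ᶜ Eb K') (subset_Rch _ _ _ hy)
    fun u v _ h3 h4 _ _ h5 => ?_
  by_cases hv : v ∈ X \ ibd X
  · have hu : u ∈ X := by
      by_contra hu
      exact hv.2 ⟨hv.1, u, hu, h3.symm⟩
    refine Rch_step h5 h3 ?_
    rw [← h u hu, ← h v hv.1]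
    exact h4
  · exact subset_Rch _ _ _ hv

theorem level_int {X U : Set V} (h : X ⊆ U) : X \ ibd X ⊆ U \ ibd U :=
  fun _ hx => ⟨h hx.1, fun ⟨_, y, hy, hxy⟩ => hx.2 ⟨hx.1, y, fun h' => hy (h h'), hxy⟩⟩

theorem level_step {S : Set Cfg} {B U T W : Set V} {j k : ℤ} {c : ℝ} (hS : S.Finite)
    (hB : B.Finite) (hF : FreeIn S B) (hb : ∀ H ∈ S, ∀ x, x ∉ B → k + 1 ≤ H x) (hBU : B ⊆ U)
    (hc : ∀ X : Set V, X.Finite → W ⊆ X → c ≤ Pr (free X k) (NoS j (X \ ibd X) T)) :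
    c * Pr S {H | Disjoint (Rch Bᶜ (eGe (k + 1 + 1)) H) W} ≤ Pr S (NoS j (U \ ibd U) T) := by
  refine (explore_ge (E' := NoS j (U \ ibd U) T) Bᶜ (eGe (k + 1 + 1))
    (fun H _ K _ e _ h => ?_) fun H hH hE => ?_).trans (Pr_mono fun _ _ h => h.2)
  · rw [mem_setOf_eq, e]; exact h
  have hX := compl_Rch_subset B (eGe (k + 1 + 1)) H
  have h1 := hc _ (hB.subset hX) (Disjoint.subset_compl_left hE)
  have h2 : Pr (cell S Bᶜ (eGe (k + 1 + 1)) H)
      (NoS j ((Rch Bᶜ (eGe (k + 1 + 1)) H)ᶜ \ ibd (Rch Bᶜ (eGe (k + 1 + 1)) H)ᶜ) T) =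
      Pr (free (Rch Bᶜ (eGe (k + 1 + 1)) H)ᶜ (k + 1 + 1 - 2))
      (NoS j ((Rch Bᶜ (eGe (k + 1 + 1)) H)ᶜ \ ibd (Rch Bᶜ (eGe (k + 1 + 1)) H)ᶜ) T) := by
    refine cell_eGe hS hB hF hH (fun x hx => ?_) fun K _ K' _ e => ?_
    · have := hb H hH x hx.1
      omega
    · exact le_antisymm
        (ind_mono fun h => Disjoint.mono_left (level_loc fun x hx => (e x hx).symm) h)
        (ind_mono fun h => Disjoint.mono_left (level_loc fun x hx => e x hx) h)
  rw [show k + 1 + 1 - 2 = k by ring] at h2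
  exact (h1.trans h2.ge).trans
    (Pr_mono fun _ _ h => level_mono (level_int (hX.trans hBU)) h)

theorem level_bd {U : Set V} {k : ℤ} {H : Cfg} (hH : H ∈ free U k) (x : V)
    (hx : x ∉ U \ ibd U) : k ≤ H x := by
  by_cases h : x ∈ U
  · have := hH.2.2 x (not_not.1 fun h' => hx ⟨h, h'⟩)
    omega
  · exact (hH.2.1 x h).ge

theorem level_zero {U : Set V} {j : ℤ} {H : Cfg} (hH : H ∈ free U (j + 1)) :
    Rch (U \ ibd U)ᶜ (eA j) H ⊆ Rch (U \ ibd U)ᶜ (eGe (j + 1 + 1)) H := by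
  rintro x ⟨y, hy, hc⟩
  refine hc.ind (P := fun v => v ∈ Rch (U \ ibd U)ᶜ (eGe (j + 1 + 1)) H) (subset_Rch _ _ _ hy)
    fun u v _ h3 h4 _ _ h5 => Rch_step h5 h3 ?_
  have h6 : j + 1 ≤ H u := by
    rcases Rch_cases h5 with h | ⟨a, _, h, h'⟩
    · exact level_bd hH u h
    · have := abs_le.1 (hH.1 a u h)
      unfold eGe at h'
      omega
  have h7 := abs_le.1 (hH.1 u v h3)
  simp only [eA, le_abs] at h4
  unfold eGe
  omega

theorem level (h : Push) : Level := by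
  obtain ⟨C, c, hC, hc, h⟩ := h
  intro d
  induction d with
  | zero =>
    refine ⟨C, c, hC, hc, fun n x U j hn hU hx => ?_⟩
    rw [Nat.cast_zero, add_zero]
    exact (h n x U (j + 1) hn hU hx).2.1.trans
      (Pr_mono fun H hH h' => Disjoint.mono_left (level_zero hH) h')
  | succ d ih =>
    obtain ⟨C', c', hC', hc', ih⟩ := ih
    refine ⟨C * C', c' * c, Nat.mul_pos hC hC', mul_pos hc' hc, fun n x U j hn hU hx => ?_⟩
    rw [mul_assoc] at hx
    rw [Nat.cast_succ, ← add_assoc]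
    have h1 := (h (C' * n) x U (j + 1 + d + 1) (Nat.mul_pos hC' hn) hU hx).2.1
    exact (mul_le_mul_of_nonneg_left h1 hc'.le).trans
      (level_step (good_free hU _).1 (hU.subset diff_subset) (freeIn_free U _)
        (fun H hH => level_bd hH) diff_subset fun X hX hW => ih n x X j hn hX hW)

theorem flatLevel (h : Push) (h' : Level) : FlatLevel := by
  obtain ⟨C, c, hC, hc, h⟩ := h
  intro d
  obtain ⟨C', c', hC', hc', ih⟩ := h' d
  refine ⟨C * C', c' * c, Nat.mul_pos hC hC', mul_pos hc' hc, fun n x U j hn hU hx => ?_⟩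
  rw [mul_assoc] at hx
  have h1 := (h (C' * n) x U (j + 1 + d + 1) (Nat.mul_pos hC' hn) hU hx).2.2.2
  have h2 : SD (ab j) (flat U (j + 1 + d)) (flat U (j + 1 + d + 1)) := by
    refine sdA_flat hU ?_
    rw [abs_of_nonneg (by omega), abs_of_nonneg (by omega)]
    omega
  exact ((mul_le_mul_of_nonneg_left h1 hc'.le).trans
    (level_step (good_flat hU _).1 hU (freeIn_flat U _)
      (fun H hH x hx => (hH.2 x hx).ge) Subset.rfl fun X hX hW => ih n x X j hn hX hW)).trans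
    (h2.dec (level_dec j _ _))

end Vale.Agent.P153.App
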