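import Vale.Agent.P153.App.Stm

/-! P153, module App: Low. -/

open Set

noncomputable section
namespace Vale.Agent.P153.App

theorem low_conn {S S' A : Set V} {a b : V} (h : Conn (both S) A a b)
    (e : ∀ x ∈ A, x ∈ S → x ∈ S') : Conn (both S') A a b :=
  h.mono' fun u v _ h1 h2 h3 => ⟨⟨e u h2 h1.1, e v h3 h1.2⟩, h2, h3⟩

theorem low_hcr {S S' : Set V} {m : ℕ} (e : ∀ x ∈ rh 0 m, x ∈ S → x ∈ S')
    (h : HCr (both S) 0 m) : HCr (both S') 0 m :=
  let ⟨a, b, h1, h2, h3, h4⟩ := h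
  ⟨a, b, h1, h2, h3, low_conn h4 e⟩

theorem low_xc {S S' : Set V} {m : ℕ} (e : ∀ x ∈ rh 0 m, x ∈ S → x ∈ S') (h : XC S m) :
    XC S' m :=
  h.imp (low_hcr e) fun ⟨a, b, h1, h2, h3, h4⟩ => ⟨a, b, h1, h2, h3, low_conn h4 e⟩

theorem low_ind {E : Set Cfg} {H K : Cfg} (h : H ∈ E ↔ K ∈ E) :
    E.indicator (1 : Cfg → ℝ) H = E.indicator 1 K :=
  le_antisymm (ind_mono h.1) (ind_mono h.2)

theorem low_le {A : Set V} {H K : Cfg} (e : ∀ x ∈ A, H x = K x) :
    ∀ x ∈ A, x ∈ le 0 H → x ∈ le 0 K := fun x hx h => by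
  simpa only [le, mem_ofPred_eq, e x hx] using h

theorem low_half {X : Set V} {m : ℕ} (hX : X.Finite) (h : rh 0 m ⊆ X) :
    1 / 2 ≤ Pr (free X 0) {H | XC (le 0 H) m} := by
  have h1 := Ex_free_flip (f := {H | HCr (both (le 0 H)) 0 m}.indicator 1) hX 0 1 fun H K e =>
    low_ind ⟨low_hcr (low_le fun x hx => e x (h hx)),
      low_hcr (low_le fun x hx => (e x (h hx)).symm)⟩
  have h2 : Pr (free X 0) {H | HCr (both (ge 1 H)) 0 m} =
      Pr (free X 0) {H | HCr (both (le 0 H)) 0 m} := by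
    refine Eq.trans (Ex_congr fun H _ => ?_) h1
    have e : le 0 (fun x => 1 - H x) = ge 1 H := by
      ext x
      simp only [le, ge, mem_ofPred_eq]
      omega
    refine le_antisymm (ind_mono fun k => ?_) (ind_mono fun k => ?_)
    · rwa [mem_ofPred_eq, e]
    · rwa [mem_ofPred_eq, e] at k
  have h3 := Pr_union_le (free X 0) {H | HCr (both (ge 1 H)) 0 m} {H | XC (le 0 H) m}
  rw [Pr_eq_one (good_free hX 0) fun H _ => ?_, h2] at h3
  · have h4 : Pr (free X 0) {H | HCr (both (le 0 H)) 0 m} ≤ Pr (free X 0) {H | XC (le 0 H) m} :=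
      Pr_mono fun H _ k => Or.inl k
    linarith
  · by_cases k : HCr (both (ge 1 H)) 0 m
    · exact Or.inl k
    · have e : (ge 1 H)ᶜ = le 0 H := by
        ext x
        simp only [le, ge, mem_compl_iff, mem_ofPred_eq]
        omega
      exact Or.inr (Or.inr (e ▸ vcr_of_not_hcr k))

theorem s_low : S_low := by
  intro m n N T h1 h2
  have hF : FreeIn (free (hex 0 T) 0) (hex 0 (N - 1)) := (freeIn_free _ 0).mono fun x hx => by
    rw [mem_hex] at hx
    refine ⟨mem_hex.2 (by omega), fun k => ?_⟩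
    have := mem_ibd_hex.1 k
    omega
  have key := explore_ge (S := free (hex 0 T) 0) (c := 1 / 2)
    (E := {H | Circ (both (ge 1 H)) 0 N (15 * N)} ∩ NoS 0 (hex 0 (N - 1)) (hex 0 (2 * m)))
    (E' := {H | XC (le 0 H) m}) (hex 0 (N - 1))ᶜ (eA 0) ?_ ?_
  · have k1 := Pr_union_le (free (hex 0 T) 0) ({H | Circ (both (ge 1 H)) 0 N (15 * N)} ∩
      NoS 0 (hex 0 (N - 1)) (hex 0 (2 * m))) {H | Lng (star (hi 0 H)) n}
    have k2 : Pr (free (hex 0 T) 0) {H | Circ (both (ge 1 H)) 0 N (15 * N)} ≤ _ :=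
      (Pr_mono fun H _ k => ?_).trans k1
    · have k3 : _ ≤ Pr (free (hex 0 T) 0)
          ({H | Circ (both (ge 1 H)) 0 N (15 * N)} ∩ {H | XC (le 0 H) m}) :=
        key.trans (Pr_mono fun H _ k => ⟨k.1.1, k.2⟩)
      linarith
    · by_cases k' : H ∈ NoS 0 (hex 0 (N - 1)) (hex 0 (2 * m))
      · exact Or.inl ⟨k, k'⟩
      · obtain ⟨a, ⟨b, hb, hc⟩, ha⟩ := not_disjoint_iff.1 k'
        refine Or.inr ⟨b, a, ?_, hc⟩
        have := nrm_tri 0 a b
        rw [mem_compl_iff, mem_hex] at hb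
        rw [mem_hex] at ha
        rw [nrm_sub_comm]
        omega
  · rintro H - K - e1 e2 ⟨⟨l, w, c1, c2, c3, c4⟩, hd⟩
    have e3 : ∀ t ≤ l, K (w t) = H (w t) := fun t ht => e2 _ (subset_Rch _ _ _ fun k => by
      have := (c3 t ht).1
      rw [mem_hex] at k
      omega)
    refine ⟨⟨l, w, c1, fun t ht => ⟨(c2 t ht).1, ?_⟩, c3, c4⟩, ?_⟩
    · simpa only [both, ge, mem_ofPred_eq, e3 t ht.le, e3 (t + 1) ht] using (c2 t ht).2
    · simpa only [NoS, mem_ofPred_eq, e1] using hd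
  · rintro H hH ⟨-, hd⟩
    have hs : rh 0 m ⊆ (Rch (hex 0 (N - 1))ᶜ (eA 0) H)ᶜ :=
      rh_subset_hex.trans (Disjoint.subset_compl_left hd)
    rw [Pr, cell_eA (good_free (hex_finite 0 T) 0).1 (hex_finite _ _) hF hH fun K _ K' _ e =>
      low_ind ⟨low_xc (low_le fun x hx => e x (hs hx)),
        low_xc (low_le fun x hx => (e x (hs hx)).symm)⟩]
    exact low_half ((hex_finite _ _).subset (compl_Rch_subset _ _ _)) hs

end Vale.Agent.P153.App
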