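import Vale.Agent.P153.App.Stm

/-! P153, module App: Mix. -/

open Set

noncomputable section
namespace Vale.Agent.P153.App

theorem rsw0 (h : Level) : RSW0 := by
  obtain ⟨C, c, h1, h2, h3⟩ := h 1
  refine ⟨C, c, h1, h2, fun n x j k hn hk => ?_⟩
  have := h3 n x _ (k - 2) hn (hex_finite x _) Subset.rfl
  rw [show k - 2 + 1 + (1 : ℕ) = k by omega] at this
  refine this.trans (Pr_mono ?_)
  rintro H - hH ⟨a, b, ha, hb, hc⟩
  obtain ⟨u, v, -, e1, e2, -, e3, -, e4, -⟩ :=
    hc.exit (B := (Rch (hex x (C * n) \ ibd (hex x (C * n)))ᶜ (eA (k - 2)) H)ᶜ)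
      (fun h => Set.disjoint_left.1 hH h ha.le)
      (not_not.2 (subset_Rch _ _ _ fun h => h.2 (mem_ibd_hex.2 hb)))
  refine e3 (Rch_step (not_not.1 e4) e1.symm ?_)
  simp only [star, sp, mem_ofPred_eq] at e2
  simp only [eA, le_abs]
  omega

theorem mix_arm {S S' : Set V} {x : V} {n N : ℕ} (h : Arm (star S) x n N)
    (hs : ∀ u ∈ ann x n N, u ∈ S → u ∈ S') : Arm (star S') x n N :=
  let ⟨a, b, h1, h2, h3⟩ := h
  ⟨a, b, h1, h2, h3.mono' fun u v _ e hu hv => ⟨e.imp (hs u hu) (hs v hv), hu, hv⟩⟩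

theorem mix (h : RSW0) : Mix := by
  obtain ⟨C, c, h1, h2, h3⟩ := h
  refine ⟨2 * C, max (1 - c) (1 / 2), by omega, by positivity, max_lt (by linarith) (by norm_num),
    fun j Pl Mi W x₀ b x J r R hW hf h0 hx hM hw => ?_⟩
  induction J generalizing r with
  | zero => exact fun _ _ => (Pr_le_one _ _).trans_eq (pow_zero _).symm
  | succ J ih =>
    intro hr hR
    rw [pow_succ, mul_assoc] at hR
    have e1 : r ≤ C * r := Nat.le_mul_of_pos_left r h1
    have e2 : 2 * C * r ≤ R := (Nat.le_mul_of_pos_left _ (by positivity)).trans hR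
    have e3 : 2 * C * r = 2 * (C * r) := mul_assoc _ _ _
    have i := ih (2 * C * r) (by omega) hR
    have sB : hex x (C * r) ⊆ hex x R := hex_mono (by omega)
    have st := sand_step (j := j) (k := j + 2) (b := b)
      (D := {H | ¬ Arm (star (sp (j + 2) H)) x r (C * r)})
      (E := {H | Arm (star (sp (j + 2) H)) x (2 * C * r) R}) (hex_finite x (C * r))
      (cnn_hex_compl x _) (by omega) hW hf h0 (fun h => hx (sB h))
      (fun y hy h => Set.disjoint_left.1 hM hy (sand_int sB h))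
      (fun y z a w => (hw y z a w).imp (fun h k => h (sand_int sB k)) fun h k => h (sand_int sB k))
      (fun H K _ _ le hH hK => hH (mix_arm hK fun u hu k => by
        rw [sp_add_two] at k ⊢
        exact fun k' => k (le ⟨k', hu.2⟩).1))
      fun H K _ _ e hH => mix_arm hH fun u hu k => by
        rw [sp_add_two] at k ⊢
        have hu' : u ∉ hex x (C * r) := fun h => by
          have := hu.1
          rw [mem_hex] at h
          omega
        exact fun k' => k (e.subset ⟨k', hu'⟩).1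
    have e4 := mul_le_mul_of_nonneg_right (h3 r x j (j + 2) hr (by omega))
      (Pr_nonneg (OmS j Pl Mi W x₀ b) {H | Arm (star (sp (j + 2) H)) x (2 * C * r) R})
    have e5 := Pr_inter_add_diff (OmS j Pl Mi W x₀ b)
      {H | Arm (star (sp (j + 2) H)) x (2 * C * r) R}
      {H | ¬ Arm (star (sp (j + 2) H)) x r (C * r)}
    have e6 : Pr (OmS j Pl Mi W x₀ b) {H | Arm (star (sp (j + 2) H)) x r R} ≤
        Pr (OmS j Pl Mi W x₀ b) ({H | Arm (star (sp (j + 2) H)) x (2 * C * r) R} \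
          {H | ¬ Arm (star (sp (j + 2) H)) x r (C * r)}) :=
      Pr_mono fun H _ hH => ⟨Arm.mono hH (fun _ _ => id) (by omega) e2 le_rfl,
        not_not.2 (Arm.mono hH (fun _ _ => id) le_rfl e1 (by omega))⟩
    have e7 := mul_le_mul (le_max_left (1 - c) (1 / 2)) i (Pr_nonneg _ _) (by positivity)
    rw [pow_succ']
    linarith

theorem mixS (h : Mix) : MixS := by
  obtain ⟨C, θ, h1, h2, h3, h4⟩ := h
  refine ⟨C, θ, h1, h2, h3, fun j m U P x J r R hU hc hs hr hR => ?_⟩
  obtain ⟨x₀, h0⟩ := compl_nonempty hU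
  have key : ∀ (Pl Mi : Set V) (b : ℤ), Uᶜ ⊆ Pl ∪ Mi → (∀ y ∈ Mi, y ∉ U \ ibd U) →
      Pr (OmS (j - 2) Pl Mi (both Uᶜ) x₀ b) {H | Arm (star (sp j H)) x r R} ≤ θ ^ J :=
    fun Pl Mi b a1 a2 => by
      have := h4 (j - 2) Pl Mi _ x₀ b x J r R (far_both hU)
        (hU.subset (compl_subset_comm.1 a1)) (a1 h0) (fun h => h0 (hs h))
        (Set.disjoint_left.2 fun y hy k => a2 y hy (sand_int hs k))
        (fun y z _ w => Or.inl fun k => w.1 (hs k.1)) hr hR
      rwa [sub_add_cancel] at this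
  have s1 : Uᶜ ⊆ (U \ ibd U)ᶜ := compl_subset_compl.2 sdiff_subset
  refine ⟨fun hm => ?_, ?_, fun hj => ?_⟩
  · rcases show (m - (j - 2)) % 4 = 0 ∨ (m - (j - 2)) % 4 = 2 by omega with e | e
    · rw [(free_eq_OmS hc h0).1 e]
      exact key _ _ _ (s1.trans subset_union_left) fun _ h => h.elim
    · rw [(free_eq_OmS hc h0).2 e]
      exact key _ _ _ (s1.trans subset_union_right) fun _ h => h
  · rcases show ((m - (j - 2)) % 4 = 0 ∨ (m - (j - 2)) % 4 = 1) ∨
      ((m - (j - 2)) % 4 = 2 ∨ (m - (j - 2)) % 4 = 3) by omega with e | e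
    · rw [(flat_eq_OmS hc h0).1 e]
      exact key _ _ _ subset_union_left fun _ h => h.elim
    · rw [(flat_eq_OmS hc h0).2 e]
      exact key _ _ _ subset_union_right fun _ h k => h k.1
  · rcases show (1 - (j - 2)) % 4 = 0 ∨ (3 - (j - 2)) % 4 = 0 by omega with e | e
    · rw [(dob_eq_OmS hc h0 P).1, OmS_congr e]
      exact key _ _ _ (fun y hy => (em (y ∈ P)).imp (fun h => ⟨h, hy⟩) fun h => ⟨h, hy⟩)
        fun _ h k => h.2 k.1
    · rw [(dob_eq_OmS hc h0 P).2, OmS_congr e]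
      exact key _ _ _ (fun y hy => (em (y ∈ P)).symm.imp (fun h => ⟨h, hy⟩) fun h => ⟨h, hy⟩)
        fun _ h k => h.2 k.1

end Vale.Agent.P153.App
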