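import Vale.Agent.P153.App.Stm

/-! P153, module App: minus arms under a plus band, any centre. -/

open Set

noncomputable section
namespace Vale.Agent.P153.App

/-- Geometric decay of minus arms under a plus band, for any centre. -/
def MixW : Prop := ∃ (C : ℕ) (θ : ℝ), 1 ≤ C ∧ 0 < θ ∧ θ < 1 ∧ ∀ (k : ℤ) (U : Set V) (x : V)
  (J r R : ℕ), U.Finite → Cnn Uᶜ → 1 ≤ r → C ^ J * r ≤ R →
  Pr (free U k) {H | Arm (star (sp (k + 2) H)) x r R} ≤ θ ^ J

theorem mixW (h : MixS) : MixW := by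
  obtain ⟨C, θ, h1, h2, h3, h⟩ := h
  refine ⟨C, θ, h1, h2, h3, fun k U x J r R hU cU hr hR => ?_⟩
  obtain ⟨n, hn⟩ := exists_hex_of_finite (hU.union (hex_finite x R)) x
  have k1 := (h (k + 2) k (hex x n) ∅ x J r R (hex_finite x n) (cnn_hex_compl x n)
    (subset_union_right.trans hn) hr hR).1 (by omega)
  have sd := (sand_free (k := k) (j := k) (m := k) (hex_finite x n) (cnn_hex_compl x n) cU
    (subset_union_left.trans hn) (by omega)).2 (by omega)
  have hd : DecBy (fun H => sp k H ∩ U) {H | Arm (star (sp (k + 2) H ∩ U)) x r R} := by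
    rintro H K - - hHK ⟨a, b, ha, hb, hc⟩
    refine ⟨a, b, ha, hb, hc.mono (star_mono fun y hy => ⟨?_, hy.2⟩) Subset.rfl⟩
    have := hy.1
    rw [sp_add_two] at this ⊢
    exact fun h' => this (hHK ⟨h', hy.2⟩).1
  refine le_trans (Pr_mono fun H hH => ?_) ((sd.dec hd).trans (le_trans (Pr_mono ?_) k1))
  · rintro ⟨a, b, ha, hb, hc⟩
    refine ⟨a, b, ha, hb, hc.mono (star_mono fun y hy => ⟨hy, ?_⟩) Subset.rfl⟩
    by_contra hy'
    have e := hH.2.1 y hy'
    simp only [sp, mem_ofPred_eq] at hy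
    omega
  · rintro H - ⟨a, b, ha, hb, hc⟩
    exact ⟨a, b, ha, hb, hc.mono (star_mono inter_subset_left) Subset.rfl⟩

end Vale.Agent.P153.App
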