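import Vale.Agent.P153.App.Stm

/-! P153, module App: Push. -/

open Set

noncomputable section
namespace Vale.Agent.P153.App

theorem push_far {U : Set V} {x b : V} {R : ℕ} (h : hex x R ⊆ U) (hb : b ∈ (U \ ibd U)ᶜ) :
    R ≤ nrm (b - x) := by
  by_contra h1
  refine hb ⟨h (mem_hex.2 (not_le.1 h1).le), fun ⟨_, y, h2, h3⟩ => h2 (h ?_)⟩
  have := h3.nrm_le x
  rw [mem_hex]
  omega

theorem push_ge {St : Set V} {x : V} {H : Cfg} {k : ℤ} {N R : ℕ} (hN : 1 ≤ N) (hH : Lip H)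
    (hS : ∀ b ∈ St, R < nrm (b - x)) (h : Circ (star (ge (k + 2) H)) x (2 * N) R) :
    Disjoint (Rch St (eLe k) H) (hex x N) := by
  rw [Rch_eLe, disjoint_left]
  rintro a ⟨b, hb, hc⟩ ha
  rw [mem_hex] at ha
  exact h.ge_block hH (by omega) (hS b hb) (hc.symm (star_symm _))

theorem push_le {St : Set V} {x : V} {H : Cfg} {k : ℤ} {N R : ℕ} (hN : 1 ≤ N) (hH : Lip H)
    (hS : ∀ b ∈ St, R < nrm (b - x)) (h : Circ (star (le (k - 1) H)) x (2 * N) R) :
    Disjoint (Rch St (eGe (k + 1)) H) (hex x N) := by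
  rw [Rch_eGe, disjoint_left, show k + 1 = k - 1 + 2 by ring]
  rintro a ⟨b, hb, hc⟩ ha
  rw [mem_hex] at ha
  exact h.le_block hH (by omega) (hS b hb) (hc.symm (star_symm _))

theorem push_inc (k : ℤ) (x : V) (n R : ℕ) : IncBy id {H | Circ (star (ge k H)) x n R} :=
  fun _ _ _ _ h h' => Circ.mono h' (star_mono fun z hz => le_trans hz (h z)) le_rfl le_rfl

theorem push_dec (k : ℤ) (x : V) (n R : ℕ) : DecBy id {H | Circ (star (le k H)) x n R} :=
  fun _ _ _ _ h h' => Circ.mono h' (star_mono fun z hz => le_trans (h z) hz) le_rfl le_rfl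

theorem push (h : A1) : Push := by
  obtain ⟨C, c, h1, h2, h3⟩ := h
  refine ⟨2 * C + 1, c, by omega, h2, fun N x U k hN hU hx => ?_⟩
  have e : (2 * C + 1) * N = C * (2 * N) + N := by ring
  have a1 : ∀ b ∈ (U \ ibd U)ᶜ, C * (2 * N) < nrm (b - x) := fun b hb => by
    have := push_far hx hb
    omega
  have a2 : ∀ b ∈ Uᶜ, C * (2 * N) < nrm (b - x) := fun b hb => a1 b fun h => hb h.1
  have a3 : hex x (C * (2 * N)) ⊆ U := (hex_mono (by omega)).trans hx
  have b1 := h3 (2 * N) x U k (by omega) hU a3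
  have b2 := (h3 (2 * N) x U (k - 1) (by omega) hU a3).1
  have b3 := (sd_flat_free hU (k - 1)).2
  rw [sub_add_cancel] at b3
  exact ⟨b1.1.trans (Pr_mono fun H hH h => push_ge hN hH.1 a1 h),
    b1.2.trans (Pr_mono fun H hH h => push_le hN hH.1 a1 h),
    (b2.trans (b3.inc (push_inc _ _ _ _))).trans (Pr_mono fun H hH h => push_ge hN hH.1 a2 h),
    (b1.2.trans ((sd_flat_free hU k).1.dec (push_dec _ _ _ _))).trans
      (Pr_mono fun H hH h => push_le hN hH.1 a2 h)⟩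

end Vale.Agent.P153.App
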