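import Vale.Agent.P153.App.Stm

/-! P153, module App: Scr. -/

open Set

noncomputable section
namespace Vale.Agent.P153.App

theorem scr_dec (j : ℤ) (B T : Set V) : DecBy (ab j) (NoS j B T) := fun _ _ _ _ h hK =>
  Disjoint.mono_left (Rch_mono Subset.rfl fun a b _ hab =>
    hab.imp (fun h1 => le_trans h1 (h a)) fun h1 => le_trans h1 (h b)) hK

theorem scr_big (H : Cfg) (x : V) : x ∈ Seal.big 0 0 H ↔ 3 ≤ ab 0 H x := by
  simp only [Seal.big, ab, mem_ofPred_eq, Pi.zero_apply, le_abs]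
  omega

/-- A Lipschitz function that is large on `P` and vanishes far from it. -/
theorem scr_cone {P : Set V} (hP : P.Finite) (M : ℕ) : ∃ w : V → ℕ, Lip (fun x => (w x : ℤ)) ∧
    (∀ x, w x ≤ M) ∧ (∀ x ∈ P, w x = M) ∧ ∀ x, (∀ y ∈ P, M ≤ nrm (x - y)) → w x = 0 := by
  refine ⟨fun x => hP.toFinset.sup fun y => M - nrm (x - y), ?_, ?_, ?_, ?_⟩
  · have key : ∀ x x', Adj x x' → (hP.toFinset.sup fun y => M - nrm (x - y)) ≤
        (hP.toFinset.sup fun y => M - nrm (x' - y)) + 1 := fun x x' h =>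
      Finset.sup_le fun y hy => by
        have h1 := Finset.le_sup (f := fun y => M - nrm (x' - y)) hy
        have h2 := h.nrm_le y
        omega
    intro x y h
    have h1 := key x y h
    have h2 := key y x h.symm
    beta_reduce
    rw [abs_le]
    constructor <;> omega
  · exact fun x => Finset.sup_le fun y _ => Nat.sub_le _ _
  · intro x hx
    refine le_antisymm (Finset.sup_le fun y _ => Nat.sub_le _ _) ?_
    have h1 := Finset.le_sup (f := fun y => M - nrm (x - y)) (hP.mem_toFinset.2 hx)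
    simpa [nrm] using h1
  · intro x hx
    exact Nat.eq_zero_of_le_zero (Finset.sup_le fun y hy => by
      have := hx y (hP.mem_toFinset.1 hy); omega)

theorem seal_scr (h : FlatLevel) : Seal.Scr := by
  classical
  intro M
  obtain ⟨C, c, hC, hc, hL⟩ := h (M + 1)
  refine ⟨C + M + 2, c, hc, fun n U D P T H z hn hU hUP hb hT hz hne => ?_⟩
  set S : Set Cfg := {H' | H' ∈ Seal.fill U H ∧ ∀ x ∈ D, x ∈ U → x ∉ Seal.big 0 0 H'} with hS
  obtain ⟨H₀, hH₀⟩ := id hne
  obtain ⟨w, w1, w2, w3, w4⟩ := scr_cone ((obd_finite hU).inter_of_right P) (M + 1)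
  have l1 : Lip fun x => -(w x : ℤ) := fun x y hxy => by
    have := w1 x y hxy
    beta_reduce at *
    rw [abs_le] at *
    constructor <;> omega
  have l2 : Lip fun x => 1 + (w x : ℤ) := fun x y hxy => by
    have := w1 x y hxy
    beta_reduce at *
    rw [abs_le] at *
    constructor <;> omega
  set ξ : Cfg := (fun x => -(w x : ℤ)) ⊔ ((fun x => 1 + (w x : ℤ)) ⊓ H₀) with hξ
  have lξ : Lip ξ := l1.sup (l2.inf hH₀.1.1)
  have ξv : ∀ x, ξ x = max (-(w x : ℤ)) (min (1 + (w x : ℤ)) (H₀ x)) := fun x => rfl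
  have ξo : ∀ y ∈ obd U, ξ y = H y := fun y hy => by
    have e1 := hH₀.1.2 y hy.1
    rw [ξv, e1]
    rcases hb y hy with ⟨h1, h2⟩ | ⟨h1, -⟩
    · have := w3 y ⟨h1, hy⟩
      simp only [Seal.big, mem_ofPred_eq, Pi.zero_apply] at h2
      omega
    · simp only [Seal.big, mem_ofPred_eq, Pi.zero_apply] at h1
      omega
  have ξ1 : ∀ x, w x = 0 → ab 0 ξ x = 1 := fun x hx => ab_eq_one.2 (by rw [ξv, hx]; omega)
  obtain ⟨R, hR⟩ := exists_hex_of_finite
    (hU.union (z.finite_toSet.biUnion fun y _ => hex_finite y ((C + M + 2) * n))) 0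
  set F : Set V := {x | x ∈ hex 0 R ∧ (x ∈ U ∨ ∀ y ∈ P ∩ obd U, M + 2 ≤ nrm (x - y))} with hF
  have hFf : F.Finite := (hex_finite 0 R).subset fun x hx => hx.1
  have hUF : U ⊆ F := fun x hx => ⟨hR (Or.inl hx), Or.inl hx⟩
  set S' : Set Cfg := {K | Lip K ∧ (∀ x, x ∉ U → K x = ξ x) ∧ ∀ x ∈ D ∩ U, ab 0 K x = 1} with hS'
  have gS : Good S := ⟨(finite_pin hU H).subset fun K hK => hK.1, hne⟩
  have sw : ∀ K ∈ S, ∀ K' ∈ S', pw U K' K ∈ S ∧ pw U K K' ∈ S' := by
    intro K hK K' hK'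
    have e : ∀ a ∈ U, ∀ b, b ∉ U → Adj a b → K b = K' b := fun a ha b hb' hab => by
      rw [hK.1.2 b hb', hK'.2.1 b hb', ξo b ⟨hb', a, ha, hab.symm⟩]
    refine ⟨⟨⟨hK'.1.pw hK.1.1 fun a ha b hb' hab => ?_, fun x hx => ?_⟩, fun x hx hxU => ?_⟩,
      hK.1.1.pw hK'.1 fun a ha b hb' hab => ?_, fun x hx => ?_, fun x hx => ?_⟩
    · rw [e a ha b hb' hab]; exact hK'.1 a b hab
    · rw [pw_out _ _ hx]; exact hK.1.2 x hx
    · have := hK'.2.2 x ⟨hx, hxU⟩
      rw [scr_big, ab_ne_one]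
      simpa only [ab, pw_in _ _ hxU] using this
    · rw [← e a ha b hb' hab]; exact hK.1.1 a b hab
    · rw [pw_out _ _ hx]; exact hK'.2.1 x hx
    · have := hK.2 x hx.1 hx.2
      rw [scr_big, ab_ne_one] at this
      simpa only [ab, pw_in _ _ hx.2] using this
  have gS' : Good S' := by
    refine ⟨(finite_pin hU ξ).subset fun K hK => ⟨hK.1, hK.2.1⟩, pw U H₀ ξ, ?_, fun x hx => ?_,
      fun x hx => ?_⟩
    · refine hH₀.1.1.pw lξ fun a ha b hb' hab => ?_
      rw [ξo b ⟨hb', a, ha, hab.symm⟩, ← hH₀.1.2 b hb']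
      exact hH₀.1.1 a b hab
    · exact pw_out _ _ hx
    · have := hH₀.2 x hx.1 hx.2
      rw [scr_big, ab_ne_one] at this
      simpa only [ab, pw_in _ _ hx.2] using this
  have sd : SD (ab 0) S' (flat F (0 + 1 + (M + 1 : ℕ))) := by
    have g2 := good_flat hFf (0 + 1 + (M + 1 : ℕ))
    have g1 := gS'
    rw [hS', pin_eq_OmA U (D ∩ U) 0 ξ inter_subset_right] at g1 ⊢
    rw [(flat_eq_OmA F 0 (M + 1)).1] at g2 ⊢
    have far : ∀ x, x ∉ U → x ∈ F → ∀ y ∈ P ∩ obd U, M + 2 ≤ nrm (x - y) :=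
      fun x hx hxF => hxF.2.resolve_left hx
    refine sd_A (fun x => by split_ifs <;> simp) (Or.inl rfl) (by simpa using hU)
      (by simpa using hFf) (fun x a ha b hb' h1 h2 => ?_) (fun x hx hxF => ?_) g1 g2
    · by_cases hx : x ∈ U
      · simp only [hx, hUF hx, if_true, mem_univ, and_true] at ha ⊢
        split_ifs at ha ⊢
        · rw [mem_singleton_iff] at *; omega
        · trivial
      · simp only [hx, if_false, mem_singleton_iff] at ha ⊢
        by_cases hxF : x ∈ F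
        · have := ξ1 x (w4 x fun y hy => by have := far x hx hxF y hy; omega)
          simp only [hxF, if_true, mem_univ, and_true]
          omega
        · simp only [hxF, if_false, mem_singleton_iff] at hb' ⊢
          have e1 := w2 x
          have e2 : ab 0 ξ x ≤ 2 * ((M + 1 : ℕ) : ℤ) + 1 := by
            simp only [ab, ξv]
            rw [abs_le]
            constructor <;> omega
          omega
    · have hxF' : x ∈ F := not_not.1 hxF
      have hx' : x ∉ U := hx
      refine ⟨?_, fun y hxy => ?_⟩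
      · simp only [hx', if_false]
        rw [ξ1 x (w4 x fun y hy => by have := far x hx hxF' y hy; omega)]
      · by_cases hy : y ∈ U
        · have ho : x ∈ obd U := ⟨hx', y, hy, hxy⟩
          rcases hb x ho with ⟨h1, -⟩ | ⟨-, h2⟩
          · have := far x hx hxF' x ⟨h1, ho⟩
            simp [nrm] at this
          · simp [hy, h2 y hy hxy.symm]
        · simp only [hy, if_false]
          rw [ξ1 y (w4 y fun p hp => by
            have e1 := far x hx hxF' p hp
            have e2 := hxy.symm.nrm_le p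
            omega)]
  set E' : Set Cfg := ⋂ y ∈ z, NoS 0 (F \ ibd F) (hex y n) with hE'
  have hd : DecBy (ab 0) E' := fun K K' h1 h2 h3 h4 =>
    mem_iInter₂.2 fun y hy => scr_dec 0 _ _ K K' h1 h2 h3 (mem_iInter₂.1 h4 y hy)
  have p1 : c ^ z.card ≤ Pr (flat F (0 + 1 + (M + 1 : ℕ))) E' := by
    refine le_trans ?_ ((paA_flat hFf 0 _).dec_prod (good_flat hFf _) z _ fun y _ => scr_dec 0 _ _)
    rw [← Finset.prod_const]
    refine Finset.prod_le_prod (fun _ _ => hc.le) fun y hy => hL n y F 0 hn hFf fun x hx => ?_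
    have e1 := mem_hex.1 hx
    have e2 : (C + M + 2) * n = C * n + (M + 2) * n := by ring
    have e3 : M + 2 ≤ (M + 2) * n := Nat.le_mul_of_pos_right _ hn
    refine ⟨hR (Or.inr (mem_biUnion hy (mem_hex.2 (by omega)))), Or.inr fun p hp => ?_⟩
    have e4 : ¬ nrm (p - y) ≤ (C + M + 2) * n := fun h' =>
      disjoint_left.1 (hz y hy) (mem_hex.2 h') hp.1
    have e5 := nrm_tri y x p
    rw [nrm_sub_comm p x] at e5
    omega
  have p2 : Pr S {K | pw U K ξ ∈ E'} = Pr S' E' := Pr_local gS gS' sw fun K hK K' hK' he => by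
    have : pw U K ξ = K' := funext fun x => by
      by_cases hx : x ∈ U
      · rw [pw_in _ _ hx, he x hx]
      · rw [pw_out _ _ hx, hK'.2.1 x hx]
    rw [mem_ofPred_eq, this]
  refine p1.trans ((sd.dec hd).trans (p2.ge.trans (Pr_mono fun K hK hE => ?_)))
  rintro ⟨a, ha, b, hb', hab⟩
  obtain ⟨y, hy, hby⟩ := hT b hb'
  have hbP : b ∉ P := disjoint_left.1 (hz y hy)
    (hex_mono (Nat.le_mul_of_pos_left _ (by omega)) hby)
  obtain ⟨u, v, -, huv, he, -, hu, hv, hvP, hvb⟩ := hab.last ha hbP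
  have hvU : v ∈ U := hv.resolve_right hvP
  have huU : u ∉ U := fun h' => disjoint_left.1 hUP h' hu
  have huo : u ∈ obd U := ⟨huU, v, hvU, huv⟩
  have ag : ∀ x, x ∈ U ∨ x = u → x ∈ Seal.big 0 0 K → 3 ≤ ab 0 (pw U K ξ) x := by
    intro x hx h3
    rw [scr_big] at h3
    rcases hx with hx | rfl
    · simpa only [ab, pw_in _ _ hx] using h3
    · simpa only [ab, pw_out _ _ huU, ξo x huo, ← hK.1.2 x huU] using h3
  refine disjoint_left.1 (mem_iInter₂.1 hE y hy) ⟨u, fun h' => ?_, ?_⟩ hby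
  · rcases h'.1.2 with h1 | h1
    · exact huU h1
    · have := h1 u ⟨hu, huo⟩
      simp [nrm] at this
  · refine Conn.head huv (he.imp (ag u (Or.inr rfl)) (ag v (Or.inl hvU))) trivial trivial
      (hvb.mono' fun s t _ hst hs ht => ⟨?_, trivial, trivial⟩)
    exact hst.imp (ag s (Or.inl (hs.1.resolve_right hs.2))) (ag t (Or.inl (ht.1.resolve_right ht.2)))

end Vale.Agent.P153.App
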