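import Vale.Agent.P153.App.Stm

/-! P153, module App: Up. -/

open Set

noncomputable section
namespace Vale.Agent.P153.App

theorem up_xc {S S' : Set V} {m : ℕ} (h : ∀ x ∈ rh 0 m, x ∈ S → x ∈ S') (hX : XC S m) :
    XC S' m := by
  rcases hX with ⟨a, b, h1, h2, h3, h4⟩ | ⟨a, b, h1, h2, h3, h4⟩
  · exact Or.inl ⟨a, b, h1, h2, h3,
      h4.mono' fun u v _ e hu hv => ⟨⟨h u hu e.1, h v hv e.2⟩, hu, hv⟩⟩
  · exact Or.inr ⟨a, b, h1, h2, h3,
      h4.mono' fun u v _ e hu hv => ⟨⟨h u hu e.1, h v hv e.2⟩, hu, hv⟩⟩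

theorem up_conn {H : Cfg} {a b : V} (h : Conn (fun u _ => H u ≤ 0) univ b a) :
    b ∈ le 0 H ∪ {a} ∧ Conn (fun _ _ => True) (le 0 H ∪ {a}) b a := by
  induction h using Relation.ReflTransGen.head_induction_on with
  | refl => exact ⟨Or.inr rfl, Conn.rfl⟩
  | head e _ ih => exact ⟨Or.inl e.2.1, Conn.head e.1 trivial (Or.inl e.2.1) ih.1 ih.2⟩

theorem up_lng {H : Cfg} {m : ℕ} (h : XC (ge 2 H) m) : Lng (star (hi 0 H)) (2 * m) := by
  have k : ∀ u v, both (ge 2 H) u v → star (hi 0 H) u v := fun u v e => Or.inl (by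
    have : 2 ≤ H u := e.1
    show 3 ≤ |2 * (H u - 0) - 1|
    rw [le_abs]; omega)
  rcases h with ⟨a, b, h1, h2, -, h4⟩ | ⟨a, b, h1, h2, -, h4⟩ <;>
    refine ⟨a, b, ?_, h4.mono k (subset_univ _)⟩ <;>
    simp only [sub_zero] at h1 h2 <;> rw [le_nrm_sub_iff] <;> push_cast <;> omega

theorem s_up : S_up := by
  intro m N T h1 h2
  have hU := hex_finite 0 T
  set B := hex 0 T \ ibd (hex 0 T) with hB
  set E : Set Cfg := {H | Disjoint (Rch Bᶜ (fun s _ => s ≤ 0) H) (hex 0 (2 * m))} with hE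
  have a1 : ∀ H, Circ (both (ge 1 H)) 0 N (15 * N) → H ∈ E := by
    intro H hc
    refine disjoint_left.2 ?_
    rintro a ⟨b, hb, hab⟩ ha
    have nb : T ≤ nrm (b - 0) := by
      by_cases h : b ∈ hex 0 T
      · exact (mem_ibd_hex.1 (not_not.1 fun h' => hb ⟨h, h'⟩)).ge
      · exact (not_le.1 h).le
    have na : nrm (a - 0) ≤ 2 * m := ha
    obtain ⟨v, v1, v2, v3⟩ := hc.meet_both (a := a) (b := b) (by omega) (by omega)
      ((up_conn hab).2.symm fun _ _ => id)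
    rcases v1 with v1 | rfl
    · have : H v ≤ 0 := v1
      have : 1 ≤ H v := v2
      omega
    · have := v3.1
      omega
  have tw : ∀ X : Set Cfg, Pr (free (hex 0 T) 0) (E ∩ X) = Ex (free (hex 0 T) 0) fun H =>
      E.indicator 1 H * Pr (cell (free (hex 0 T) 0) Bᶜ (fun s _ => s ≤ 0) H) X := by
    intro X
    rw [Pr, Ex_congr fun H _ => ind_inter E X H]
    refine tower_explore _ _ _ _ fun H _ K _ e _ => ?_
    refine le_antisymm (ind_mono ?_) (ind_mono ?_) <;> simp only [hE, mem_ofPred_eq, e] <;>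
      exact id
  have a2 : Pr (free (hex 0 T) 0) (E ∩ {H | XC (le 0 H) m}) =
      Pr (free (hex 0 T) 0) (E ∩ {H | XC (ge 2 H) m}) := by
    rw [tw, tw]
    refine Ex_congr fun H hH => ?_
    by_cases h : H ∈ E
    swap
    · simp [h]
    congr 1
    have hb := obd_low (B := B) (k := 0) hH.1 fun x hx => by
      by_cases u : x ∈ hex 0 T
      · have := hH.2.2 x (not_not.1 fun h' => hx.1 ⟨u, h'⟩)
        omega
      · rw [hH.2.1 x u]; omega
    have sb : ∀ x ∈ rh 0 m, x ∉ Rch Bᶜ (fun s _ => s ≤ 0) H := fun x hx h' =>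
      disjoint_left.1 h h' (rh_subset_hex hx)
    have cf : ∀ F : Cfg → Set V, (∀ K K' x, K x = K' x → x ∈ F K → x ∈ F K') →
        Pr (cell (free (hex 0 T) 0) Bᶜ (fun s _ => s ≤ 0) H) {H | XC (F H) m} =
          Pr (flat (Rch Bᶜ (fun s _ => s ≤ 0) H)ᶜ (0 + 1)) {H | XC (F H) m} := fun F hF =>
      cell_flat (fun s => s ≤ 0) (good_free hU 0).1 (hU.subset fun _ h => h.1)
        (freeIn_free _ 0) hH hb fun K _ K' _ e => le_antisymm
          (ind_mono (up_xc fun x hx => hF K K' x (e x (sb x hx))))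
          (ind_mono (up_xc fun x hx => hF K' K x (e x (sb x hx)).symm))
    rw [cf (le 0) fun K K' x e (h : K x ≤ 0) => show K' x ≤ 0 from e ▸ h,
      cf (ge 2) fun K K' x e (h : 2 ≤ K x) => show 2 ≤ K' x from e ▸ h]
    refine (Ex_flat_flip _ 1 2 _).symm.trans (Ex_congr fun K _ => ?_)
    refine le_antisymm (ind_mono (up_xc fun x _ h => ?_)) (ind_mono (up_xc fun x _ h => ?_))
    · have : 2 - K x ≤ 0 := h
      show 2 ≤ K x
      omega
    · have : 2 ≤ K x := h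
      show 2 - K x ≤ 0
      omega
  calc _ ≤ Pr (free (hex 0 T) 0) (E ∩ {H | XC (le 0 H) m}) :=
        Pr_mono fun H _ h => ⟨a1 H h.1, h.2⟩
    _ = _ := a2
    _ ≤ _ := Pr_mono fun H _ h => up_lng h.2

end Vale.Agent.P153.App
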