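import Vale.Agent.P153.App.Long
import Vale.Agent.P153.App.Hyp
import Vale.Agent.P153.App.Half
import Vale.Agent.P153.App.Low
import Vale.Agent.P153.App.Up
import Vale.Agent.P153.App.A0
import Vale.Agent.P153.App.A1a
import Vale.Agent.P153.App.A1
import Vale.Agent.P153.App.Push
import Vale.Agent.P153.App.Level
import Vale.Agent.P153.App.Mix
import Vale.Agent.P153.App.Grid
import Vale.Agent.P153.App.Det
import Vale.Agent.P153.App.GStar
import Vale.Agent.P153.App.Scr
import Vale.Agent.P153.App.MixW

/-! P153, module App: the outputs. -/

namespace Vale.Agent.P153.App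

theorem a1_all : A1 := a1 (a1a (a0 s_long s_hyp s_half s_low s_up))

theorem push_all : Push := push a1_all

theorem level_all : Level := level push_all

theorem flatLevel_all : FlatLevel := flatLevel push_all level_all

theorem rsw0_all : RSW0 := rsw0 level_all

theorem mix_all : Mix := mix rsw0_all

theorem mixS_all : MixS := mixS mix_all

theorem mixW_all : MixW := mixW mixS_all

theorem gstar_all : GStar := gstar (grid rsw0_all) s_det

theorem seal_gstar_all : Seal.Gstar := seal_gstar gstar_all

theorem seal_scr_all : Seal.Scr := seal_scr flatLevel_all

end Vale.Agent.P153.App
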