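import Vale.Agent.P153.App.Stm

/-! P153, module App: Long. -/

open Set

noncomputable section
namespace Vale.Agent.P153.App

theorem long_start {U : Set V} {H : Cfg} (hH : H ∈ free U 0) {a c : V} (h : Adj a c)
    (hs : star (hi 0 H) a c) : a ∈ U := by
  by_contra ha
  rcases hs with hs | hs
  · exact ab_ne_one.2 (ab_eq_one.2 (Or.inl (hH.2.1 a ha))) hs
  · by_cases hc : c ∈ U
    · exact ab_ne_one.2 (ab_eq_one.2 (hH.2.2 c ⟨hc, a, ha, h.symm⟩)) hs
    · exact ab_ne_one.2 (ab_eq_one.2 (Or.inl (hH.2.1 c hc))) hs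

theorem long_tr (z : V) (T n N : ℕ) :
    Pr (free (hex z T) 0) {H | Arm (star (hi 0 H)) z n N} ≤
      Pr (free (hex 0 T) 0) {H | Arm (star (hi 0 H)) 0 n N} := by
  have hσ := isSym_tr (-z)
  have e : tr (-z) z = 0 := add_neg_cancel z
  have h := bij_free hσ (hex z T) 0 0
  rw [hσ.hex, e, add_zero] at h
  rw [← Pr_bij h]
  refine Pr_mono fun H _ hH => ?_
  have k : ∀ u, u ∈ hi 0 H → tr (-z) u ∈ hi 0 (hact (tr (-z)) 1 0 H) := fun u hu => by
    simpa only [hi, ab, hact, mem_ofPred_eq, Equiv.symm_apply_apply, one_mul, add_zero] using hu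
  have := Arm.map hσ hH (E' := star (hi 0 (hact (tr (-z)) 1 0 H))) fun u v h => h.imp (k u) (k v)
  rwa [e] at this

theorem s_long : S_long := by
  intro N K η U hN hU hη
  have h0 : 0 ≤ η := (Pr_nonneg _ _).trans hη
  obtain ⟨T, h1, h2, h3⟩ := cover_arm 0 (K * N) (N / 2)
  have h4 : K * N / (N / 2 + 1) ≤ 2 * K := Nat.div_le_of_le_mul (by
    rw [mul_comm _ (2 * K), mul_comm 2 K, mul_assoc]
    exact Nat.mul_le_mul_left K (by omega))
  have h5 : (T.card : ℝ) ≤ (4 * K + 5) ^ 2 := by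
    exact_mod_cast h1.trans (Nat.pow_le_pow_left (by omega) 2)
  have h6 : ∀ z ∈ T, Pr (free U 0) {H | Arm (star (hi 0 H)) z N (5 * N)} ≤ η := fun z hz => by
    have k1 : nrm (z - 0) ≤ K * N + 2 * (N / 2) := h2 z hz
    have k2 : U ⊆ hex z ((2 * K + 2) * N) := hU.trans (hex_subset (by
      rw [nrm_sub_comm, add_mul, mul_assoc]
      omega))
    have k3 : IncBy (ab 0) {H | Arm (star (hi 0 H)) z N (5 * N)} := fun H H' _ _ h hH =>
      Arm.mono hH (star_mono (S := hi 0 H) (S' := hi 0 H') fun x hx => le_trans hx (h x)) le_rfl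
        (by omega) le_rfl
    exact ((sdA_free (hex_finite _ _) k2 0).inc k3).trans ((long_tr _ _ _ _).trans hη)
  have h7 := Pr_biUnion_le (free U 0) T fun z => {H | Arm (star (hi 0 H)) z N (5 * N)}
  have h8 := Finset.sum_le_card_nsmul _ _ η h6
  rw [nsmul_eq_mul] at h8
  refine le_trans (Pr_mono ?_) (h7.trans (h8.trans (mul_le_mul_of_nonneg_right h5 h0)))
  rintro H hH ⟨a, b, k1, k2⟩
  have ha : a ∈ U := by
    rcases Relation.ReflTransGen.cases_head k2 with rfl | ⟨c, hc, -⟩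
    · rw [sub_self, nrm_zero] at k1
      omega
    · exact long_start hH hc.1 hc.2.1
  obtain ⟨z, hz, -, k3⟩ := h3 _ _ a b (5 * N) (hU ha) (by omega) (by omega) k2
  exact mem_iUnion₂.2 ⟨z, hz, k3.mono (fun _ _ => id) (by omega) (by omega) le_rfl⟩

end Vale.Agent.P153.App
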