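import Vale.Agent.P153.FKG.All
import Vale.Agent.P153.Planar.Hex
import Vale.Agent.P153.Planar.Circ
import Vale.Agent.P153.RSW.All
import Vale.Agent.P153.Seal.Stm

/-! P153, module App: definitions and statements. -/

open Set

noncomputable section
namespace Vale.Agent.P153.App

/-- Sites whose height is outside the band `{k, k+1}`. -/
def hi (k : ℤ) (H : Cfg) : Set V := {z | 3 ≤ ab k H z}

/-- No path of edges touching `hi j` from the complement of `B` to `T`. -/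
def NoS (j : ℤ) (B T : Set V) : Set Cfg := {H | Disjoint (Rch Bᶜ (eA j) H) T}

/-- There is an open path whose ends are at distance at least `r`. -/
def Lng (E : V → V → Prop) (r : ℕ) : Prop := ∃ a b, r ≤ nrm (b - a) ∧ Conn E univ a b

/-- A crossing of the rhombus in one of the two directions. -/
def XC (S : Set V) (m : ℕ) : Prop := HCr (both S) 0 m ∨ VCr (both S) 0 m

/-! ### The arm estimate -/

/-- Covering bound for long paths. -/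
def S_long : Prop := ∀ (N K : ℕ) (η : ℝ) (U : Set V), 2 ≤ N → U ⊆ hex 0 (K * N) →
  Pr (free (hex 0 ((2 * K + 2) * N)) 0) {H | Arm (star (hi 0 H)) 0 N (5 * N)} ≤ η →
  Pr (free U 0) {H | Lng (star (hi 0 H)) (7 * N)} ≤ (4 * K + 5) ^ 2 * η

/-- Without long paths the measure is nearly invariant. -/
def S_hyp : Prop := ∀ (n R T : ℕ) (η : ℝ), 3 * R + n ≤ T →
  (∀ U : Set V, U ⊆ hex 0 (T + 2 * R) → Pr (free U 0) {H | Lng (star (hi 0 H)) n} ≤ η) →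
  RSW.Hyp (fun H => both (ge 1 H)) (Pr (free (hex 0 T) 0)) R (4 * η)

/-- The arm of height at least one. -/
def S_half : Prop := ∀ (N R T : ℕ) (η : ℝ), 10 * N ≤ R → 6 * N ≤ T →
  RSW.Hyp (fun H => both (ge 1 H)) (Pr (free (hex 0 T) 0)) R η →
  1 / 6 - η ≤ Pr (free (hex 0 T) 0) {H | Arm (both (ge 1 H)) 0 N (5 * N)}

/-- Lower bound for a low crossing inside a high circuit. -/
def S_low : Prop := ∀ m n N T : ℕ, 2 * m + n < N → 15 * N < T →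
  Pr (free (hex 0 T) 0) {H | Circ (both (ge 1 H)) 0 N (15 * N)} -
    Pr (free (hex 0 T) 0) {H | Lng (star (hi 0 H)) n} ≤
  2 * Pr (free (hex 0 T) 0) ({H | Circ (both (ge 1 H)) 0 N (15 * N)} ∩ {H | XC (le 0 H) m})

/-- Upper bound for a low crossing inside a high circuit. -/
def S_up : Prop := ∀ m N T : ℕ, 2 * m < N → 15 * N < T →
  Pr (free (hex 0 T) 0) ({H | Circ (both (ge 1 H)) 0 N (15 * N)} ∩ {H | XC (le 0 H) m}) ≤
    Pr (free (hex 0 T) 0) {H | Lng (star (hi 0 H)) (2 * m)}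

/-- Arms of edges touching `hi 0` are likely. -/
def A0 : Prop := ∃ (K : ℕ) (p : ℝ), 0 < p ∧ p < 1 ∧ ∀ N, 326 ≤ N →
  p ≤ Pr (free (hex 0 (K * N)) 0) {H | Arm (star (hi 0 H)) 0 N (5 * N)}

/-- Circuits of edges touching `hi 0`. -/
def A1a : Prop := ∃ (M : ℕ) (c : ℝ), 0 < c ∧ ∀ N, 326 ≤ N →
  c ≤ Pr (free (hex 0 (M * N)) 0) {H | Circ (star (hi 0 H)) 0 N (15 * N)}

/-! ### Outputs -/

/-- Circuits two levels above and below the band. -/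
def A1 : Prop := ∃ (C : ℕ) (c : ℝ), 1 ≤ C ∧ 0 < c ∧ ∀ (N : ℕ) (x : V) (U : Set V) (k : ℤ), 1 ≤ N →
  U.Finite → hex x (C * N) ⊆ U →
  c ≤ Pr (free U k) {H | Circ (star (ge (k + 2) H)) x N (C * N)} ∧
    c ≤ Pr (free U k) {H | Circ (star (le (k - 1) H)) x N (C * N)}

/-- Pushing a band up or down by one: the exploration misses the small hexagon. -/
def Push : Prop := ∃ (C : ℕ) (c : ℝ), 1 ≤ C ∧ 0 < c ∧ ∀ (N : ℕ) (x : V) (U : Set V) (k : ℤ),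
  1 ≤ N → U.Finite → hex x (C * N) ⊆ U →
  c ≤ Pr (free U k) {H | Disjoint (Rch (U \ ibd U)ᶜ (eLe k) H) (hex x N)} ∧
    c ≤ Pr (free U k) {H | Disjoint (Rch (U \ ibd U)ᶜ (eGe (k + 1)) H) (hex x N)} ∧
    c ≤ Pr (flat U k) {H | Disjoint (Rch Uᶜ (eLe (k - 1)) H) (hex x N)} ∧
    c ≤ Pr (flat U k) {H | Disjoint (Rch Uᶜ (eGe (k + 1)) H) (hex x N)}

/-- Screens below a band. -/
def Level : Prop := ∀ d : ℕ, ∃ (C : ℕ) (c : ℝ), 1 ≤ C ∧ 0 < c ∧ ∀ (n : ℕ) (x : V) (U : Set V)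
  (j : ℤ), 1 ≤ n → U.Finite → hex x (C * n) ⊆ U →
  c ≤ Pr (free U (j + 1 + d)) (NoS j (U \ ibd U) (hex x n))

/-- Screens below a flat boundary condition. -/
def FlatLevel : Prop := ∀ d : ℕ, ∃ (C : ℕ) (c : ℝ), 1 ≤ C ∧ 0 < c ∧ ∀ (n : ℕ) (x : V) (U : Set V)
  (j : ℤ), 1 ≤ n → U.Finite → hex x (C * n) ⊆ U →
  c ≤ Pr (flat U (j + 1 + d)) (NoS j (U \ ibd U) (hex x n))

/-- Screens for the spins under the worst boundary condition. -/
def RSW0 : Prop := ∃ (C : ℕ) (c : ℝ), 1 ≤ C ∧ 0 < c ∧ ∀ (n : ℕ) (x : V) (j k : ℤ), 1 ≤ n →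
  (k - j) % 4 = 2 →
  c ≤ Pr (free (hex x (C * n)) k) {H | ¬ Arm (star (sp (j + 2) H)) x n (C * n)}

/-- Geometric decay of minus arms for the class `OmS`. -/
def Mix : Prop := ∃ (C : ℕ) (θ : ℝ), 1 ≤ C ∧ 0 < θ ∧ θ < 1 ∧ ∀ (j : ℤ) (Pl Mi : Set V)
  (W : V → V → Prop) (x₀ : V) (b : ℤ) (x : V) (J r R : ℕ), Far W → (Pl ∪ Mi)ᶜ.Finite →
  x₀ ∈ Pl ∪ Mi → x₀ ∉ hex x R → Disjoint Mi (hex x R \ ibd (hex x R)) →
  (∀ y z, Adj y z → W y z → y ∉ hex x R \ ibd (hex x R) ∨ z ∉ hex x R \ ibd (hex x R)) →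
  1 ≤ r → C ^ J * r ≤ R →
  Pr (OmS j Pl Mi W x₀ b) {H | Arm (star (sp (j + 2) H)) x r R} ≤ θ ^ J

/-- The same for the standard measures. -/
def MixS : Prop := ∃ (C : ℕ) (θ : ℝ), 1 ≤ C ∧ 0 < θ ∧ θ < 1 ∧ ∀ (j m : ℤ) (U P : Set V) (x : V)
  (J r R : ℕ), U.Finite → Cnn Uᶜ → hex x R ⊆ U → 1 ≤ r → C ^ J * r ≤ R →
  ((m - j) % 2 = 0 → Pr (free U m) {H | Arm (star (sp j H)) x r R} ≤ θ ^ J) ∧
    Pr (flat U m) {H | Arm (star (sp j H)) x r R} ≤ θ ^ J ∧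
    (j % 2 = 1 → Pr (dob U P) {H | Arm (star (sp j H)) x r R} ≤ θ ^ J)

/-- No long path touching a minus spin. -/
def Grid : Prop := ∃ r₀ : ℕ, ∀ L : ℕ, ∃ c : ℝ, 0 < c ∧ ∀ (r : ℕ) (x : V) (k : ℤ), r₀ ≤ r →
  c ≤ Pr (free (hex x (L * r)) k) {H | ¬ Lng (star (sp (k + 2) H)) r}

/-- From the spins to the heights. -/
def S_det : Prop := ∀ (H : Cfg) (U : Set V) (k : ℤ) (r : ℕ), Lip H → U.Finite →
  (∀ x, x ∉ U → H x = k) → 1 ≤ r → ¬ Lng (star (sp (k + 2) H)) r → ¬ Lng (star (hi k H)) (2 * r)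

/-- No long path touching a height outside the band. -/
def GStar : Prop := ∀ L : ℕ, ∃ c : ℝ, 0 < c ∧ ∀ (r : ℕ) (x : V) (U : Set V) (k : ℤ), 1 ≤ r →
  U ⊆ hex x (L * r) → c ≤ Pr (free U k) {H | ¬ Lng (star (hi k H)) r}

end Vale.Agent.P153.App
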